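import Mathlib

/-!
Areas of planar pieces in Euclidean spaces.
-/

set_option autoImplicit false

open MeasureTheory Set
open scoped ENNReal Topology

noncomputable section

namespace Crest.Agent.Cyl

abbrev E2 := EuclideanSpace ℝ (Fin 2)
abbrev E3 := EuclideanSpace ℝ (Fin 3)

/-- affine parametrisation of a plane -/
def aff {V : Type*} [AddCommGroup V] [Module ℝ V] (p A B : V) (z : ℝ × ℝ) : V :=
  p + z.1 • A + z.2 • B

/-- square root of the Gram determinant -/
def gr {V : Type*} [NormedAddCommGroup V] [InnerProductSpace ℝ V] (A B : V) : ℝ :=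
  Real.sqrt (‖A‖ ^ 2 * ‖B‖ ^ 2 - inner ℝ A B ^ 2)

theorem gr_nonneg {V : Type*} [NormedAddCommGroup V] [InnerProductSpace ℝ V] (A B : V) :
    0 ≤ gr A B := Real.sqrt_nonneg _

theorem area_aff {V : Type*} [NormedAddCommGroup V] [InnerProductSpace ℝ V] [MeasurableSpace V]
    [BorelSpace V] (p A B : V) {s : Set (ℝ × ℝ)} (hs : MeasurableSet s) :
    (μHE[2] : Measure V) (aff p A B '' s) = ENNReal.ofReal (gr A B) * volume s := by
  let f : E2 →ₗ[ℝ] V :=
    { toFun := fun z => z 0 • A + z 1 • B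
      map_add' := by intro x y; simp [add_smul]; abel
      map_smul' := by intro c x; simp [smul_smul] }
  let e : E2 → ℝ × ℝ := fun z => (z 0, z 1)
  have he : MeasurePreserving e volume volume :=
    (volume_preserving_finTwoArrow ℝ).comp (PiLp.volume_preserving_ofLp (Fin 2))
  have h1 : aff p A B '' s = (fun x => p + x) '' (f '' (e ⁻¹' s)) := by
    ext x
    simp only [mem_image, mem_preimage, aff]
    constructor
    · rintro ⟨z, hz, rfl⟩
      exact ⟨_, ⟨!₂[z.1, z.2], by simpa [e] using hz, rfl⟩, by simp [f, add_assoc]⟩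
    · rintro ⟨_, ⟨z, hz, rfl⟩, rfl⟩
      exact ⟨e z, hz, by simp [f, e, add_assoc]⟩
  have h2 := f.euclideanHausdorffMeasure_image_eq_normDet_mul_volume (e ⁻¹' s)
  rw [finrank_euclideanSpace_fin] at h2
  have h3 : f.normDet = gr A B := by
    have := f.normDet_sq_eq_det_gram (EuclideanSpace.basisFun (Fin 2) ℝ)
    rw [Matrix.det_fin_two] at this
    simp [f, Matrix.gram] at this
    rw [gr, ← Real.sqrt_sq f.normDet_nonneg, this, real_inner_comm A B]
    congr 1; ring
  rw [h1, (isometry_add_left p).euclideanHausdorffMeasure_image, h2, h3,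
    he.measure_preimage hs.nullMeasurableSet]

/-- closed standard triangle -/
def tri : Set (ℝ × ℝ) := {z | 0 ≤ z.1 ∧ 0 ≤ z.2 ∧ z.1 + z.2 ≤ 1}

/-- half-open standard triangle -/
def tri' : Set (ℝ × ℝ) := {z | 0 ≤ z.1 ∧ 0 < z.2 ∧ z.1 + z.2 ≤ 1}

theorem measurableSet_tri : MeasurableSet tri := by
  unfold tri; measurability

theorem measurableSet_tri' : MeasurableSet tri' := by
  unfold tri'; measurability

theorem lint_half : ∫⁻ x in Icc (0 : ℝ) 1, ENNReal.ofReal (1 - x) = ENNReal.ofReal (1 / 2) := by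
  rw [← ofReal_integral_eq_lintegral_ofReal]
  · rw [integral_Icc_eq_integral_Ioc, ← intervalIntegral.integral_of_le zero_le_one]
    rw [intervalIntegral.integral_sub (by simp) (by simp)]
    norm_num
  · exact (by fun_prop : Continuous fun x : ℝ => 1 - x).integrableOn_Icc
  · filter_upwards [ae_restrict_mem measurableSet_Icc] with x hx
    simp [hx.2]

theorem volume_tri : volume tri = ENNReal.ofReal (1 / 2) := by
  rw [Measure.volume_eq_prod, Measure.prod_apply measurableSet_tri, ← lint_half,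
    ← lintegral_indicator measurableSet_Icc]
  congr 1
  funext x
  by_cases hx : x ∈ Icc (0 : ℝ) 1
  · have : Prod.mk x ⁻¹' tri = Icc 0 (1 - x) := by
      ext y; simp only [tri, mem_preimage, mem_ofPred_eq, mem_Icc]
      constructor
      · rintro ⟨_, h2, h3⟩; exact ⟨h2, by linarith⟩
      · rintro ⟨h2, h3⟩; exact ⟨hx.1, h2, by linarith⟩
    rw [this, indicator_of_mem hx]; simp
  · have : Prod.mk x ⁻¹' tri = ∅ := by
      ext y; simp only [tri, mem_preimage, mem_ofPred_eq, mem_empty_iff_false, iff_false]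
      rintro ⟨h1, h2, h3⟩; exact hx ⟨h1, by linarith⟩
    rw [this, indicator_of_notMem hx]; simp

theorem volume_tri' : volume tri' = ENNReal.ofReal (1 / 2) := by
  rw [Measure.volume_eq_prod, Measure.prod_apply measurableSet_tri', ← lint_half,
    ← lintegral_indicator measurableSet_Icc]
  congr 1
  funext x
  by_cases hx : x ∈ Icc (0 : ℝ) 1
  · have : Prod.mk x ⁻¹' tri' = Ioc 0 (1 - x) := by
      ext y; simp only [tri', mem_preimage, mem_ofPred_eq, mem_Ioc]
      constructor
      · rintro ⟨_, h2, h3⟩; exact ⟨h2, by linarith⟩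
      · rintro ⟨h2, h3⟩; exact ⟨hx.1, h2, by linarith⟩
    rw [this, indicator_of_mem hx]; simp
  · have : Prod.mk x ⁻¹' tri' = ∅ := by
      ext y; simp only [tri', mem_preimage, mem_ofPred_eq, mem_empty_iff_false, iff_false]
      rintro ⟨h1, h2, h3⟩; exact hx ⟨h1, by linarith⟩
    rw [this, indicator_of_notMem hx]; simp

/-- unit square -/
def sq1 : Set (ℝ × ℝ) := Icc (0 : ℝ) 1 ×ˢ Icc (0 : ℝ) 1

theorem measurableSet_sq1 : MeasurableSet sq1 := measurableSet_Icc.prod measurableSet_Icc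

theorem volume_sq1 : volume sq1 = 1 := by
  rw [Measure.volume_eq_prod, sq1, Measure.prod_prod]; simp

/-- half-open unit square -/
def sq0 : Set (ℝ × ℝ) := Ico (0 : ℝ) 1 ×ˢ Ico (0 : ℝ) 1

theorem measurableSet_sq0 : MeasurableSet sq0 := measurableSet_Ico.prod measurableSet_Ico

theorem volume_sq0 : volume sq0 = 1 := by
  rw [Measure.volume_eq_prod, sq0, Measure.prod_prod]; simp

section hull

variable {V : Type*} [AddCommGroup V] [Module ℝ V]

theorem convex_aff_tri (p A B : V) : Convex ℝ (aff p A B '' tri) := by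
  rintro _ ⟨z, hz, rfl⟩ _ ⟨w, hw, rfl⟩ a b ha hb hab
  refine ⟨a • z + b • w, ⟨?_, ?_, ?_⟩, ?_⟩
  · simp only [Prod.fst_add, Prod.smul_fst, smul_eq_mul]
    have := hz.1; have := hw.1; positivity
  · simp only [Prod.snd_add, Prod.smul_snd, smul_eq_mul]
    have := hz.2.1; have := hw.2.1; positivity
  · simp only [Prod.fst_add, Prod.smul_fst, smul_eq_mul, Prod.snd_add, Prod.smul_snd]
    nlinarith [hz.2.2, hw.2.2]
  · simp only [aff, Prod.fst_add, Prod.smul_fst, smul_eq_mul, Prod.snd_add, Prod.smul_snd]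
    obtain rfl : b = 1 - a := by linarith
    module

theorem aff_mem_of_convex {K : Set V} (hK : Convex ℝ K) {p q r : V} (hp : p ∈ K) (hq : q ∈ K)
    (hr : r ∈ K) {z : ℝ × ℝ} (hz : z ∈ tri) : aff p (q - p) (r - p) z ∈ K := by
  have := hK.sum_mem (t := Finset.univ) (w := ![1 - z.1 - z.2, z.1, z.2]) (z := ![p, q, r])
    (fun i _ => by fin_cases i <;> simp <;> linarith [hz.1, hz.2.1, hz.2.2])
    (by simp [Fin.sum_univ_three]; ring) (fun i _ => by fin_cases i <;> simpa)
  convert this using 1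
  simp only [aff, Fin.sum_univ_three, Matrix.cons_val_zero, Matrix.cons_val_one, Matrix.cons_val]
  module

theorem convexHull_triple_eq (p q r : V) :
    convexHull ℝ ({p, q, r} : Set V) = aff p (q - p) (r - p) '' tri := by
  apply Subset.antisymm
  · apply convexHull_min _ (convex_aff_tri _ _ _)
    rintro x (rfl | rfl | rfl)
    · exact ⟨(0, 0), by simp [tri], by simp [aff]⟩
    · exact ⟨(1, 0), by simp [tri], by simp [aff]⟩
    · exact ⟨(0, 1), by simp [tri], by simp [aff]⟩
  · rintro _ ⟨z, hz, rfl⟩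
    exact aff_mem_of_convex (convex_convexHull ℝ _) (subset_convexHull ℝ _ (by simp))
      (subset_convexHull ℝ _ (by simp)) (subset_convexHull ℝ _ (by simp)) hz

end hull

theorem area_triangle {V : Type*} [NormedAddCommGroup V] [InnerProductSpace ℝ V]
    [MeasurableSpace V] [BorelSpace V] (p q r : V) :
    (μHE[2] : Measure V) (convexHull ℝ {p, q, r}) = ENNReal.ofReal (gr (q - p) (r - p) / 2) := by
  rw [convexHull_triple_eq, area_aff _ _ _ measurableSet_tri, volume_tri,
    ← ENNReal.ofReal_mul (gr_nonneg _ _)]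
  congr 1; ring

theorem par_eq {V : Type*} [AddCommGroup V] [Module ℝ V] (c a b : V) :
    {x : V | ∃ s ∈ Icc (0 : ℝ) 1, ∃ t ∈ Icc (0 : ℝ) 1, x = c + s • a + t • b} = aff c a b '' sq1 := by
  ext x
  simp only [mem_ofPred_eq, mem_image, aff, sq1, mem_prod]
  constructor
  · rintro ⟨s, hs, t, ht, rfl⟩; exact ⟨(s, t), ⟨hs, ht⟩, rfl⟩
  · rintro ⟨z, hz, rfl⟩; exact ⟨z.1, hz.1, z.2, hz.2, rfl⟩

theorem area_par {V : Type*} [NormedAddCommGroup V] [InnerProductSpace ℝ V]
    [MeasurableSpace V] [BorelSpace V] (c a b : V) :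
    (μHE[2] : Measure V) (aff c a b '' sq1) = ENNReal.ofReal (gr a b) := by
  rw [area_aff _ _ _ measurableSet_sq1, volume_sq1, mul_one]

/-! ### projections in three-space -/

/-- determinant of three vectors -/
def det3 (u A B : E3) : ℝ :=
  u 0 * (A 1 * B 2 - A 2 * B 1) + u 1 * (A 2 * B 0 - A 0 * B 2) + u 2 * (A 0 * B 1 - A 1 * B 0)

/-- orthogonal projection along a unit vector -/
def pr (u y : E3) : E3 := y - inner ℝ y u • u

theorem inner3 (x y : E3) : inner ℝ x y = x 0 * y 0 + x 1 * y 1 + x 2 * y 2 := by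
  simp [PiLp.inner_apply, Fin.sum_univ_three]; ring

theorem normsq3 (x : E3) : ‖x‖ ^ 2 = x 0 ^ 2 + x 1 ^ 2 + x 2 ^ 2 := by
  rw [← real_inner_self_eq_norm_sq, inner3]; ring

theorem gr_pr {u : E3} (hu : ‖u‖ = 1) (A B : E3) : gr (pr u A) (pr u B) = |det3 u A B| := by
  have h : u 0 ^ 2 + u 1 ^ 2 + u 2 ^ 2 = 1 := by rw [← normsq3, hu]; norm_num
  rw [gr, ← Real.sqrt_sq_eq_abs]
  congr 1
  have h1 : ‖pr u A‖ ^ 2 = ‖A‖ ^ 2 - inner ℝ A u ^ 2 := by
    simp only [normsq3, inner3, pr, PiLp.sub_apply, PiLp.smul_apply, smul_eq_mul]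
    linear_combination (A 0 * u 0 + A 1 * u 1 + A 2 * u 2) ^ 2 * h
  have h2 : ‖pr u B‖ ^ 2 = ‖B‖ ^ 2 - inner ℝ B u ^ 2 := by
    simp only [normsq3, inner3, pr, PiLp.sub_apply, PiLp.smul_apply, smul_eq_mul]
    linear_combination (B 0 * u 0 + B 1 * u 1 + B 2 * u 2) ^ 2 * h
  have h3 : inner ℝ (pr u A) (pr u B) = inner ℝ A B - inner ℝ A u * inner ℝ B u := by
    simp only [inner3, pr, PiLp.sub_apply, PiLp.smul_apply, smul_eq_mul]
    linear_combination (A 0 * u 0 + A 1 * u 1 + A 2 * u 2) * (B 0 * u 0 + B 1 * u 1 + B 2 * u 2) * h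
  rw [h1, h2, h3]
  simp only [normsq3, inner3, det3]
  linear_combination (-((A 0 ^ 2 + A 1 ^ 2 + A 2 ^ 2) * (B 0 ^ 2 + B 1 ^ 2 + B 2 ^ 2) -
    (A 0 * B 0 + A 1 * B 1 + A 2 * B 2) ^ 2)) * h

theorem pr_aff (u p A B : E3) (z : ℝ × ℝ) :
    pr u (aff p A B z) = aff (pr u p) (pr u A) (pr u B) z := by
  simp only [pr, aff, inner_add_left, inner_smul_left, conj_trivial]
  module

theorem pr_sub (u x y : E3) : pr u (x - y) = pr u x - pr u y := by
  simp only [pr, inner_sub_left]; module

theorem pr_add (u x y : E3) : pr u (x + y) = pr u x + pr u y := by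
  simp only [pr, inner_add_left]; module

theorem pr_smul (u : E3) (c : ℝ) (x : E3) : pr u (c • x) = c • pr u x := by
  simp only [pr, inner_smul_left, conj_trivial]; module

theorem pr_self {u : E3} (hu : ‖u‖ = 1) : pr u u = 0 := by
  simp [pr, hu]

theorem inner_pr {u : E3} (hu : ‖u‖ = 1) (y : E3) : inner ℝ (pr u y) u = 0 := by
  simp [pr, inner_sub_left, inner_smul_left, hu]

theorem area_pr_aff {u : E3} (hu : ‖u‖ = 1) (p A B : E3) {s : Set (ℝ × ℝ)} (hs : MeasurableSet s) :
    (μHE[2] : Measure E3) (pr u '' (aff p A B '' s)) = ENNReal.ofReal |det3 u A B| * volume s := by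
  rw [image_image]
  simp_rw [pr_aff]
  rw [area_aff _ _ _ hs, gr_pr hu]

theorem area_plane_bounded_ne_top {u : E3} (hu : ‖u‖ = 1) {O : Set E3}
    (hO : Bornology.IsBounded O) : (μHE[2] : Measure E3) (O ∩ {x | inner ℝ x u = 0}) ≠ ⊤ := by
  have hu0 : u ≠ 0 := by rintro rfl; simp at hu
  let W : Submodule ℝ E3 := (ℝ ∙ u)ᗮ
  have hW : Module.finrank ℝ W = 2 := by
    have h1 := (ℝ ∙ u).finrank_add_finrank_orthogonal
    rw [finrank_span_singleton hu0, finrank_euclideanSpace_fin] at h1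
    simp only [W]; omega
  have h2 := (isometry_subtype_coe (s := (W : Set E3))).euclideanHausdorffMeasure_preimage
    (d := 2) O
  have h3 : range (Subtype.val : ↥(W : Set E3) → E3) = {x | inner ℝ x u = 0} := by
    ext x
    simp [W, Submodule.mem_orthogonal_singleton_iff_inner_left]
  rw [h3] at h2
  rw [← h2]
  have hH : (μHE[2] : Measure W).IsAddHaarMeasure := by
    have := MeasureTheory.isAddHaarMeasure_euclideanHausdorffMeasure (E := W)
    rwa [hW] at this
  have hb : Bornology.IsBounded ((Subtype.val : W → E3) ⁻¹' O) :=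
    (isometry_subtype_coe (s := (W : Set E3))).antilipschitz.isBounded_preimage hO
  exact (hb.measure_lt_top (μ := (μHE[2] : Measure W))).ne

/-- enlarge a compact planar base to a bounded relatively open one -/
theorem exists_open_base {u : E3} (hu : ‖u‖ = 1) {T : Set E3} (hT : IsCompact T)
    (hTu : ∀ x ∈ T, inner ℝ x u = 0) {η : ℝ} (hη : 0 < η) :
    ∃ B : Set E3, (Bornology.IsBounded B ∧ ∃ O : Set E3, IsOpen O ∧
      B = O ∩ {x | inner ℝ x u = 0}) ∧ T ⊆ B ∧
      ((μHE[2] : Measure E3) B).toReal ≤ ((μHE[2] : Measure E3) T).toReal + η := by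
  let P : Set E3 := {x | inner ℝ x u = 0}
  let ν : Measure E3 := (μHE[2] : Measure E3).restrict P
  have hν : ∀ O : Set E3, IsOpen O → ν O = (μHE[2] : Measure E3) (O ∩ P) := fun O hO =>
    Measure.restrict_apply hO.measurableSet
  have hνT : ν T = (μHE[2] : Measure E3) T := by
    rw [Measure.restrict_apply hT.measurableSet, inter_eq_left.mpr (show T ⊆ P from hTu)]
  have hfin : ∀ r, ν (Metric.thickening r T) ≠ ⊤ := fun r => by
    rw [hν _ Metric.isOpen_thickening]
    exact area_plane_bounded_ne_top hu hT.isBounded.thickening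
  have hTfin : ν T ≠ ⊤ := ne_top_of_le_ne_top (hfin 1)
    (measure_mono (Metric.self_subset_thickening one_pos T))
  have ht := tendsto_measure_thickening_of_isClosed (μ := ν) ⟨1, one_pos, hfin 1⟩ hT.isClosed
  have ht' := (ENNReal.tendsto_toReal hTfin).comp ht
  have hev := ht'.eventually (gt_mem_nhds (lt_add_of_pos_right _ hη))
  obtain ⟨r, hr, hr0⟩ := (hev.and self_mem_nhdsWithin).exists
  refine ⟨Metric.thickening r T ∩ P, ⟨hT.isBounded.thickening.subset inter_subset_left,
    _, Metric.isOpen_thickening, rfl⟩, subset_inter (Metric.self_subset_thickening hr0 T) hTu, ?_⟩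
  rw [← hν _ Metric.isOpen_thickening, ← hνT]
  exact hr.le

theorem isCompact_aff {V : Type*} [NormedAddCommGroup V] [NormedSpace ℝ V] (p A B : V)
    {s : Set (ℝ × ℝ)} (hs : IsCompact s) : IsCompact (aff p A B '' s) :=
  hs.image (by unfold aff; fun_prop)

theorem isCompact_sq1 : IsCompact sq1 := isCompact_Icc.prod isCompact_Icc

end Crest.Agent.Cyl
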