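import Crest.Agent.Cyl.Forms

/-!
Covers of fan-shaped ruled sets by triangular cylinders.
-/

set_option autoImplicit false
set_option linter.unusedVariables false

open MeasureTheory Set Filter Metric
open scoped ENNReal Topology

noncomputable section

namespace Crest.Agent.Cyl

theorem fin_telescope {N : ℕ} (g : Fin (N + 1) → ℝ) :
    ∑ i : Fin N, (g i.succ - g i.castSucc) = g (Fin.last N) - g 0 := by
  have h1 := Fin.sum_univ_succ g
  have h2 := Fin.sum_univ_castSucc g
  rw [Finset.sum_sub_distrib]; linarith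

theorem riemann (F : ℝ → ℝ) {α β : ℝ} (hαβ : α < β) (hF : ContinuousOn F (Icc α β)) {θ : ℝ}
    (hθ : 0 < θ) : ∃ δ > 0, ∀ (N : ℕ) (t : Fin (N + 1) → ℝ) (c : Fin N → ℝ),
      StrictMono t → t 0 = α → t (Fin.last N) = β →
      (∀ i : Fin N, t i.succ - t i.castSucc ≤ δ) →
      (∀ i : Fin N, t i.castSucc ≤ c i ∧ c i ≤ t i.succ) →
      ∀ (x : Fin N → ℝ) (θ' : ℝ),
        (∀ i, |x i - (t i.succ - t i.castSucc) * F (c i)| ≤ (t i.succ - t i.castSucc) * θ') →
        |∑ i, x i - ∫ τ in α..β, F τ| ≤ (β - α) * (θ + θ') := by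
  obtain ⟨δ, hδ, hu⟩ := Metric.uniformContinuousOn_iff_le.mp
    (isCompact_Icc.uniformContinuousOn_of_continuous hF) θ hθ
  refine ⟨δ, hδ, fun N t c ht h0 hN hmesh hc x θ' hx => ?_⟩
  have hmem : ∀ j, t j ∈ Icc α β := fun j =>
    ⟨h0 ▸ ht.monotone (Fin.zero_le j), hN ▸ ht.monotone (Fin.le_last j)⟩
  have hint : ∀ x ∈ Icc α β, ∀ y ∈ Icc α β, IntervalIntegrable F volume x y := fun x hx y hy =>
    (hF.mono (uIcc_subset_Icc hx hy)).intervalIntegrable
  have h1 : ∫ τ in α..β, F τ = ∑ i : Fin N, ∫ τ in t i.castSucc..t i.succ, F τ := by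
    have := fin_telescope fun j => ∫ τ in α..t j, F τ
    simp only [h0, hN, intervalIntegral.integral_same, sub_zero] at this
    rw [← this]
    refine Finset.sum_congr rfl fun i _ => ?_
    exact intervalIntegral.integral_interval_sub_left
      (hint _ (left_mem_Icc.mpr hαβ.le) _ (hmem _)) (hint _ (left_mem_Icc.mpr hαβ.le) _ (hmem _))
  have h2 : β - α = ∑ i : Fin N, (t i.succ - t i.castSucc) := by rw [fin_telescope, h0, hN]
  rw [h1, h2, ← Finset.sum_sub_distrib, Finset.sum_mul]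
  refine (Finset.abs_sum_le_sum_abs _ _).trans (Finset.sum_le_sum fun i _ => ?_)
  have hle : t i.castSucc ≤ t i.succ := (hc i).1.trans (hc i).2
  have hci : c i ∈ Icc α β := ⟨(hmem _).1.trans (hc i).1, (hc i).2.trans (hmem _).2⟩
  have h3 : |(∫ τ in t i.castSucc..t i.succ, F τ) - (t i.succ - t i.castSucc) * F (c i)| ≤
      θ * |t i.succ - t i.castSucc| := by
    have : (∫ τ in t i.castSucc..t i.succ, F τ) - (t i.succ - t i.castSucc) * F (c i) =
        ∫ τ in t i.castSucc..t i.succ, (F τ - F (c i)) := by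
      rw [intervalIntegral.integral_sub (hint _ (hmem _) _ (hmem _)) (by simp)]
      simp
    rw [this, ← Real.norm_eq_abs]
    apply intervalIntegral.norm_integral_le_of_norm_le_const
    intro y hy
    rw [uIoc_of_le hle] at hy
    refine hu y ⟨(hmem _).1.trans hy.1.le, hy.2.trans (hmem _).2⟩ _ hci ?_
    rw [Real.dist_eq, abs_le]
    constructor <;> linarith [hy.1, hy.2, hmesh i, (hc i).1, (hc i).2]
  rw [abs_of_nonneg (sub_nonneg.mpr hle)] at h3
  have h4 := abs_le.mp h3
  have h5 := abs_le.mp (hx i)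
  exact abs_le.mpr ⟨by linarith, by linarith⟩

theorem wdiff (a b : E3) {α β : ℝ} (w : ℝ → E3) (lam : ℝ → ℝ) (hlam : ContinuousOn lam (Icc α β))
    (hw' : ∀ t ∈ Icc α β, HasDerivWithinAt w (lam t • (a + t • b)) (Icc α β) t) {Λ : ℝ}
    (hΛ : ∀ t ∈ Icc α β, |lam t| ≤ Λ) {t0 t1 c τ : ℝ} (h0 : α ≤ t0) (h1 : t1 ≤ β)
    (hc : c ∈ Icc t0 t1) (hτ : τ ∈ Icc t0 t1) :
    ∃ A B : ℝ, w τ - w c = A • a + B • b ∧ |A| ≤ Λ * (t1 - t0) ∧
      |B - t0 * A| ≤ Λ * (t1 - t0) ^ 2 ∧ |B - t1 * A| ≤ Λ * (t1 - t0) ^ 2 := by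
  have hsub0 : uIcc c τ ⊆ Icc t0 t1 := uIcc_subset_Icc hc hτ
  have hsub : uIcc c τ ⊆ Icc α β := hsub0.trans (Icc_subset_Icc h0 h1)
  have hl : ContinuousOn lam (uIcc c τ) := hlam.mono hsub
  have i1 : IntervalIntegrable lam volume c τ := hl.intervalIntegrable
  have i2 : IntervalIntegrable (fun θ => lam θ * θ) volume c τ :=
    (hl.mul continuousOn_id).intervalIntegrable
  have hΛ0 : 0 ≤ Λ := (abs_nonneg _).trans (hΛ c (hsub left_mem_uIcc))
  have hd : |τ - c| ≤ t1 - t0 := abs_le.mpr ⟨by linarith [hτ.1, hc.2], by linarith [hτ.2, hc.1]⟩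
  have hB : ∀ s ∈ Icc t0 t1, |(∫ θ in c..τ, lam θ * θ) - s * ∫ θ in c..τ, lam θ| ≤
      Λ * (t1 - t0) ^ 2 := by
    intro s hs
    rw [← intervalIntegral.integral_const_mul, ← intervalIntegral.integral_sub i2 (i1.const_mul s)]
    have := intervalIntegral.norm_integral_le_of_norm_le_const (a := c) (b := τ)
      (f := fun θ => lam θ * θ - s * lam θ) (C := Λ * (t1 - t0)) (fun y hy => by
        have hy' := uIoc_subset_uIcc hy
        have : lam y * y - s * lam y = lam y * (y - s) := by ring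
        rw [this, Real.norm_eq_abs, abs_mul]
        have h2 := hsub0 hy'
        exact mul_le_mul (hΛ y (hsub hy'))
          (abs_le.mpr ⟨by linarith [h2.1, hs.2], by linarith [h2.2, hs.1]⟩) (abs_nonneg _) hΛ0)
    refine this.trans ?_
    rw [sq, ← mul_assoc]
    exact mul_le_mul_of_nonneg_left hd (mul_nonneg hΛ0 (by linarith [hc.1, hc.2]))
  have h01 : t0 ≤ t1 := hc.1.trans hc.2
  refine ⟨∫ θ in c..τ, lam θ, ∫ θ in c..τ, lam θ * θ, ?_, ?_, hB t0 (left_mem_Icc.mpr h01),
    hB t1 (right_mem_Icc.mpr h01)⟩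
  · rw [← intervalIntegral.integral_eq_sub_of_hasDeriv_right (f := w)
      (f' := fun t => lam t • (a + t • b)), ← intervalIntegral.integral_smul_const,
      ← intervalIntegral.integral_smul_const, ← intervalIntegral.integral_add]
    · congr 1; funext θ; module
    · exact (hl.smul continuousOn_const).intervalIntegrable
    · exact ((hl.mul continuousOn_id).smul continuousOn_const).intervalIntegrable
    · exact fun y hy => ((hw' y (hsub hy)).continuousWithinAt).mono hsub
    · intro y hy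
      have hy' : y ∈ uIcc c τ := Ioo_subset_Icc_self hy
      have : Icc α β ∈ 𝓝 y := mem_of_superset (Ioo_mem_nhds hy.1 hy.2)
        (Ioo_subset_Icc_self.trans hsub)
      exact ((hw' y (hsub hy')).hasDerivAt this).hasDerivWithinAt
    · exact (hl.smul (by fun_prop)).intervalIntegrable
  · have := intervalIntegral.norm_integral_le_of_norm_le_const (a := c) (b := τ)
      (f := lam) (C := Λ) (fun y hy => hΛ y (hsub (uIoc_subset_uIcc hy)))
    exact this.trans (mul_le_mul_of_nonneg_left hd hΛ0)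

theorem det3_fan {e a b W : E3} (he : ‖e‖ = 1) (ha : inner ℝ a e = 0) (hb : inner ℝ b e = 0)
    (hW : inner ℝ W e = 0) : |det3 (e + W) a b| = gr a b := by
  have h1 : det3 W a b = 0 := by
    have h : e 0 ^ 2 + e 1 ^ 2 + e 2 ^ 2 = 1 := by rw [← normsq3, he]; norm_num
    rw [inner3] at ha hb hW
    linear_combination (norm := (simp only [det3]; ring1)) (det3 e a b) * hW +
      (det3 e b W) * ha + (det3 e W a) * hb - (det3 W a b) * h
  have h2 : det3 (e + W) a b = det3 e a b + det3 W a b := by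
    simp only [det3, PiLp.add_apply]; ring
  rw [h2, h1, add_zero, ← gr_pr he]
  simp [pr, ha, hb]

theorem fan_piece {e a b W : E3} (p0 : E3) (he : ‖e‖ = 1) (ha : inner ℝ a e = 0)
    (hb : inner ℝ b e = 0) (hW : inner ℝ W e = 0) (hab : LinearIndependent ℝ ![a, b])
    {t0 t1 κ H m : ℝ} (h01 : t0 < t1) (hκ : 0 < κ) (hH : 0 ≤ H) (hm : 0 ≤ m) (S : Set E3)
    (hS1 : ∀ x ∈ S, ∃ X Y σ : ℝ, x = p0 + X • a + Y • b + σ • (e + W) ∧ X ≤ H ∧
      -(κ * (t1 - t0) ^ 2) ≤ Y - t0 * X ∧ -(κ * (t1 - t0) ^ 2) ≤ t1 * X - Y)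
    (hS2 : ∀ τ ∈ Icc t0 t1, ∀ ρ ∈ Icc 0 m, p0 + ρ • (a + τ • b) ∈ S) :
    ∃ p q r : E3, (inner ℝ p (e + W) = 0 ∧ inner ℝ q (e + W) = 0 ∧ inner ℝ r (e + W) = 0) ∧
      AffineIndependent ℝ ![p, q, r] ∧
      (∀ x ∈ S, ∃ y ∈ convexHull ℝ {p, q, r}, ∃ σ : ℝ, x = y + σ • (e + W)) ∧
      ((μHE[2] : Measure E3) (convexHull ℝ {p, q, r})).toReal =
        (t1 - t0) * (gr a b * ((H + 2 * κ * (t1 - t0)) ^ 2 / (2 * Real.sqrt (1 + ‖W‖ ^ 2)))) ∧
      ((μHE[2] : Measure E3) ((fun y => y - (inner ℝ y (e + W) / ‖e + W‖ ^ 2) • (e + W)) ''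
        S)).toReal ≤
        (t1 - t0) * (gr a b * ((H + 2 * κ * (t1 - t0)) ^ 2 / (2 * Real.sqrt (1 + ‖W‖ ^ 2)))) ∧
      (t1 - t0) * (gr a b * (m ^ 2 / (2 * Real.sqrt (1 + ‖W‖ ^ 2)))) ≤
      ((μHE[2] : Measure E3) ((fun y => y - (inner ℝ y (e + W) / ‖e + W‖ ^ 2) • (e + W)) ''
        S)).toReal := by
  set n := Real.sqrt (1 + ‖W‖ ^ 2) with hn
  have hn0 : 0 < n := by positivity
  have hnorm : ‖e + W‖ = n := by
    rw [hn, ← Real.sqrt_sq (norm_nonneg (e + W)), norm_add_sq_real, real_inner_comm, hW, he]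
    simp
  clear_value n
  obtain ⟨u, hud⟩ : ∃ u : E3, u = n⁻¹ • (e + W) := ⟨_, rfl⟩
  have hd : e + W = n • u := by rw [hud, smul_smul, mul_inv_cancel₀ hn0.ne', one_smul]
  have hu : ‖u‖ = 1 := by
    rw [hud, norm_smul, hnorm, norm_inv, Real.norm_of_nonneg hn0.le, inv_mul_cancel₀ hn0.ne']
  have hue : inner ℝ u e = n⁻¹ := by
    rw [hud, inner_smul_left, inner_add_left, hW, real_inner_self_eq_norm_sq, he]; simp
  have hproj : (fun y : E3 => y - (inner ℝ y (e + W) / ‖e + W‖ ^ 2) • (e + W)) = pr u := by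
    funext y
    rw [hnorm, hd, inner_smul_right, smul_smul, pr]
    congr 2; field_simp
  have hdet : |det3 u a b| = gr a b / n := by
    rw [← det3_fan he ha hb hW, hd]
    have : det3 (n • u) a b = n * det3 u a b := by
      simp only [det3, PiLp.smul_apply, smul_eq_mul]; ring
    rw [this, abs_mul, abs_of_pos hn0]; field_simp
  rw [hproj]
  set h := t1 - t0 with hh
  have h0 : 0 < h := sub_pos.mpr h01
  have harea : ∀ (P : E3) (G : ℝ), (μHE[2] : Measure E3)
      (aff P (pr u (G • (a + t0 • b))) (pr u (G • (a + t1 • b))) '' tri) =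
      ENNReal.ofReal (h * (gr a b * (G ^ 2 / (2 * n)))) := fun P G => by
    rw [area_aff _ _ _ measurableSet_tri, volume_tri, ← ENNReal.ofReal_mul (gr_nonneg _ _),
      gr_pr hu]
    have : det3 u (G • (a + t0 • b)) (G • (a + t1 • b)) = G ^ 2 * h * det3 u a b := by
      simp only [det3, PiLp.smul_apply, PiLp.add_apply, smul_eq_mul, hh]; ring
    rw [this, abs_mul, hdet, abs_of_nonneg (by positivity)]
    congr 1; field_simp
  set G := H + 2 * κ * h with hG
  have hG0 : 0 < G := by positivity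
  set P := pr u (p0 + (-2 * κ * h) • a + (t0 * (-2 * κ * h) - κ * h ^ 2) • b) with hP
  set A := pr u (G • (a + t0 • b)) with hA
  set B := pr u (G • (a + t1 • b)) with hB
  have hhull : convexHull ℝ {P, P + A, P + B} = aff P A B '' tri := by
    rw [convexHull_triple_eq]; simp
  have hcov : ∀ x ∈ S, pr u x ∈ aff P A B '' tri := by
    intro x hx
    obtain ⟨X, Y, σ, rfl, h1, h2, h3⟩ := hS1 x hx
    refine ⟨((t1 * X - Y + κ * h ^ 2) / (h * G), (Y - t0 * X + κ * h ^ 2) / (h * G)),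
      ⟨div_nonneg (by linarith) (by positivity), div_nonneg (by linarith) (by positivity), ?_⟩, ?_⟩
    · rw [← add_div, div_le_one (by positivity)]
      have : t1 = t0 + h := by linarith
      rw [this, hG]
      nlinarith
    · rw [hP, hA, hB, ← pr_aff, pr_add u _ (σ • _), hd, pr_smul, pr_smul, pr_self hu, smul_zero,
        smul_zero, add_zero]
      congr 1
      have : t1 = t0 + h := by linarith
      rw [this]
      simp only [aff]
      match_scalars
      · ring
      · field_simp; ring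
      · field_simp; ring
  have hfin : (μHE[2] : Measure E3) (aff P A B '' tri) ≠ ⊤ := by
    rw [harea]; exact ENNReal.ofReal_ne_top
  have hsub : pr u '' S ⊆ aff P A B '' tri := by
    rintro _ ⟨x, hx, rfl⟩; exact hcov x hx
  have hg := gr_nonneg a b
  refine ⟨P, P + A, P + B, ?_, ?_, ?_, ?_, ?_, ?_⟩
  · simp only [hd, inner_smul_right, inner_add_left, hP, hA, hB, inner_pr hu]
    simp
  · rw [affineIndependent_iff_of_fintype]
    intro c hc hs
    rw [Finset.weightedVSub_eq_linear_combination _ hc] at hs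
    simp only [Fin.sum_univ_three, Matrix.cons_val_zero, Matrix.cons_val_one,
      Matrix.cons_val] at hs hc
    have e1 : pr u ((G * (c 1 + c 2)) • a + (G * (c 1 * t0 + c 2 * t1)) • b) = 0 := by
      have : (G * (c 1 + c 2)) • a + (G * (c 1 * t0 + c 2 * t1)) • b =
          c 1 • G • (a + t0 • b) + c 2 • G • (a + t1 • b) := by module
      rw [this, pr_add, pr_smul u (c 1), pr_smul u (c 2), ← hA, ← hB, ← hs]
      have : c 0 = -(c 1 + c 2) := by linarith
      rw [this]; module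
    set v := (G * (c 1 + c 2)) • a + (G * (c 1 * t0 + c 2 * t1)) • b with hv
    have e2 : inner ℝ v e = 0 := by
      simp [hv, inner_add_left, inner_smul_left, ha, hb]
    have e3 : v = inner ℝ v u • u := sub_eq_zero.mp e1
    have e4 : inner ℝ v u = 0 := by
      rw [e3, inner_smul_left, hue] at e2
      simpa [hn0.ne'] using e2
    rw [e4, zero_smul] at e3
    obtain ⟨e5, e6⟩ := LinearIndependent.pair_iff.mp hab _ _ e3
    have e7 : c 1 + c 2 = 0 := by simpa [hG0.ne'] using e5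
    have e8 : c 1 * t0 + c 2 * t1 = 0 := by simpa [hG0.ne'] using e6
    have e9 : c 2 = 0 := by
      have : c 2 * h = 0 := by rw [hh]; linear_combination e8 - t0 * e7
      simpa [h0.ne'] using this
    intro i
    fin_cases i <;> simp <;> linarith
  · intro x hx
    refine ⟨pr u x, hhull ▸ hcov x hx, inner ℝ x u / n, ?_⟩
    rw [hd, smul_smul, div_mul_cancel₀ _ hn0.ne', pr, sub_add_cancel]
  · rw [hhull, harea, ENNReal.toReal_ofReal (by positivity)]
  · apply ENNReal.toReal_le_of_le_ofReal (by positivity)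
    rw [← harea P G]
    exact measure_mono hsub
  · rw [← ENNReal.ofReal_le_iff_le_toReal (ne_top_of_le_ne_top hfin (measure_mono hsub)),
      ← harea (pr u p0) m]
    apply measure_mono
    rintro _ ⟨z, ⟨h1, h2, h3⟩, rfl⟩
    rw [← pr_aff]
    apply mem_image_of_mem
    rcases eq_or_lt_of_le (add_nonneg h1 h2) with h4 | h4
    · have := hS2 t0 (left_mem_Icc.mpr h01.le) 0 (left_mem_Icc.mpr hm)
      have h5 : z.1 = 0 := by linarith
      have h6 : z.2 = 0 := by linarith
      simpa [aff, h5, h6] using this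
    · have := hS2 ((z.1 * t0 + z.2 * t1) / (z.1 + z.2))
        ⟨by rw [le_div_iff₀ h4]; nlinarith, by rw [div_le_iff₀ h4]; nlinarith⟩ (m * (z.1 + z.2))
        ⟨by positivity, by nlinarith⟩
      convert this using 1
      simp only [aff]
      match_scalars
      · ring
      · ring
      · field_simp

end Crest.Agent.Cyl
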