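import Crest.Agent.Cyl.Tetra

/-!
Reformulations of the tetrahedron cover.
-/

set_option autoImplicit false
set_option linter.unusedVariables false

open MeasureTheory Set
open scoped ENNReal Topology

noncomputable section

namespace Crest.Agent.Cyl

theorem pad {ι α : Type} [Fintype ι] (M : ℕ) (h : Fintype.card ι ≤ M) (f : ι → α) (d : α) :
    ∃ g : Fin M → α, (∀ j, g j = d ∨ ∃ i, g j = f i) ∧ (∀ i, ∃ j, g j = f i) ∧
      ∀ w : α → ℝ, w d = 0 → ∑ j, w (g j) = ∑ i, w (f i) := by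
  classical
  obtain ⟨e⟩ : Nonempty (ι ↪ Fin M) := Function.Embedding.nonempty_of_card_le (by simpa using h)
  refine ⟨Function.extend e f (fun _ => d), fun j => ?_, fun i => ⟨e i, ?_⟩, fun w hw => ?_⟩
  · by_cases hj : ∃ i, e i = j
    · obtain ⟨i, rfl⟩ := hj
      exact Or.inr ⟨i, e.injective.extend_apply _ _ _⟩
    · exact Or.inl (Function.extend_apply' _ _ _ hj)
  · exact e.injective.extend_apply _ _ _
  · symm
    apply Finset.sum_of_injOn e (e.injective.injOn) (by simp)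
    · intro j _ hj
      rw [Function.extend_apply' _ _ _ (by simpa using hj), hw]
    · intro i _
      rw [e.injective.extend_apply]

theorem Frame.exists_tri_cover (F : Frame) (o : E3) (c : ℝ) :
    ∃ u p q r : Bool × Fin NN → E3, (∀ i, ‖u i‖ = 1) ∧
      (∀ i, inner ℝ (p i) (u i) = 0 ∧ inner ℝ (q i) (u i) = 0 ∧ inner ℝ (r i) (u i) = 0) ∧
      (F.tetra o c ⊆ ⋃ i, {x : E3 | ∃ b ∈ convexHull ℝ {p i, q i, r i}, ∃ t : ℝ,
        x = b + t • u i}) ∧
      ∑ i, ((μHE[2] : Measure E3) (convexHull ℝ {p i, q i, r i})).toReal ≤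
        c ^ 2 * Real.sqrt 2 * (1 / 2 - 1 / 10 ^ 8) := by
  obtain ⟨u, P, A, B, hu, hperp, hcov, hsum⟩ := F.exists_cover o c
  refine ⟨u, P, fun i => P i + A i, fun i => P i + B i, hu, fun i => ?_, fun X hX => ?_, ?_⟩
  · obtain ⟨h1, h2, h3⟩ := hperp i
    simp [inner_add_left, h1, h2, h3]
  · obtain ⟨i, z, hz, t, rfl⟩ := hcov X hX
    refine mem_iUnion.mpr ⟨i, _, ?_, t, rfl⟩
    rw [convexHull_triple_eq]
    exact ⟨z, hz, by simp⟩
  · refine le_trans (le_of_eq ?_) hsum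
    refine Finset.sum_congr rfl fun i _ => ?_
    rw [area_triangle, ENNReal.toReal_ofReal (by have := gr_nonneg (P i + A i - P i) (P i + B i - P i); positivity)]
    simp

theorem Frame.exists_tri_cover' (F : Frame) (o : E3) (c : ℝ) :
    ∃ (m : ℕ) (u p q r : Fin m → E3), m ≤ 4000000 ∧ (∀ i, ‖u i‖ = 1) ∧
      (∀ i, inner ℝ (p i) (u i) = 0 ∧ inner ℝ (q i) (u i) = 0 ∧ inner ℝ (r i) (u i) = 0) ∧
      (F.tetra o c ⊆ ⋃ i, {x : E3 | ∃ b ∈ convexHull ℝ {p i, q i, r i}, ∃ t : ℝ,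
        x = b + t • u i}) ∧
      ∑ i, ((μHE[2] : Measure E3) (convexHull ℝ {p i, q i, r i})).toReal ≤
        c ^ 2 * Real.sqrt 2 * (1 / 2 - 1 / 10 ^ 8) := by
  obtain ⟨u, p, q, r, hu, hperp, hcov, hsum⟩ := F.exists_tri_cover o c
  let e := Fintype.equivFin (Bool × Fin NN)
  refine ⟨_, u ∘ e.symm, p ∘ e.symm, q ∘ e.symm, r ∘ e.symm, ?_, fun i => hu _, fun i => hperp _,
    fun X hX => ?_, ?_⟩
  · rw [Fintype.card_prod, Fintype.card_bool, Fintype.card_fin]
    exact le_of_eq rfl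
  · obtain ⟨i, hi⟩ := Set.mem_iUnion.mp (hcov hX)
    refine Set.mem_iUnion.mpr ⟨e i, ?_⟩
    simp only [Function.comp_apply, Equiv.symm_apply_apply]
    exact hi
  · simp only [Function.comp_apply]
    rw [Equiv.sum_comp e.symm (fun i => ((μHE[2] : Measure E3)
      (convexHull ℝ {p i, q i, r i})).toReal)]
    exact hsum

/-- the standard frame -/
def stdF : Frame where
  e1 := !₂[1, 0, 0]
  e2 := !₂[0, 1, 0]
  e3 := !₂[0, 0, 1]
  h11 := by rw [inner3]; simp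
  h22 := by rw [inner3]; simp
  h33 := by rw [inner3]; simp
  h12 := by rw [inner3]; simp
  h13 := by rw [inner3]; simp
  h23 := by rw [inner3]; simp

theorem stdF_fr (x y z : ℝ) : stdF.fr x y z = !₂[x, y, z] := by
  ext i
  fin_cases i <;> simp [Frame.fr, stdF]

theorem stdF_tetra : stdF.tetra 0 1 = convexHull ℝ {!₂[1, 0, 0], !₂[-1, 0, 0],
    !₂[0, 1, Real.sqrt 2], !₂[0, -1, Real.sqrt 2]} := by
  simp [Frame.tetra, stdF_fr]

theorem pr_eq (v : E3) : (fun y : E3 => y - inner ℝ y v • v) = pr v := rfl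

theorem pr_convexHull (v : E3) (s : Set E3) : pr v '' convexHull ℝ s = convexHull ℝ (pr v '' s) := by
  let L : E3 →ₗ[ℝ] E3 := { toFun := pr v, map_add' := pr_add v, map_smul' := pr_smul v }
  exact L.image_convexHull s

theorem std_proj_eq : (μHE[2] : Measure E3) (pr !₂[1, 0, 0] '' convexHull ℝ {!₂[1, 0, 0],
    !₂[-1, 0, 0], !₂[0, 1, Real.sqrt 2], !₂[0, -1, Real.sqrt 2]}) =
    ENNReal.ofReal (Real.sqrt 2) := by
  have h1 : pr !₂[1, 0, 0] !₂[1, 0, 0] = 0 := by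
    rw [pr, inner3]; ext i; fin_cases i <;> simp
  have h2 : pr !₂[1, 0, 0] !₂[-1, 0, 0] = 0 := by
    rw [pr, inner3]; ext i; fin_cases i <;> simp
  have h3 : pr !₂[1, 0, 0] !₂[0, 1, Real.sqrt 2] = !₂[0, 1, Real.sqrt 2] := by
    rw [pr, inner3]; ext i; fin_cases i <;> simp
  have h4 : pr !₂[1, 0, 0] !₂[0, -1, Real.sqrt 2] = !₂[0, -1, Real.sqrt 2] := by
    rw [pr, inner3]; ext i; fin_cases i <;> simp
  rw [pr_convexHull]
  simp only [image_insert_eq, image_singleton, h1, h2, h3, h4, mem_insert_iff, true_or,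
    insert_eq_of_mem]
  rw [area_triangle]
  congr 1
  have h : Real.sqrt 2 ^ 2 = 2 := Real.sq_sqrt (by norm_num)
  have : gr (!₂[0, 1, Real.sqrt 2] - 0 : E3) (!₂[0, -1, Real.sqrt 2] - 0) = 2 * Real.sqrt 2 := by
    rw [gr, ← Real.sqrt_sq (by positivity : 0 ≤ 2 * Real.sqrt 2)]
    congr 1
    simp only [normsq3, inner3, sub_zero]
    simp
    nlinarith
  rw [this]; ring

theorem muH_eq : ∃ κ : ℝ, 0 < κ ∧ ∀ s : Set E3,
    ((μH[(2 : ℝ)] : Measure E3) s).toReal = κ * ((μHE[2] : Measure E3) s).toReal := by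
  have h0 := Measure.addHaarScalarFactor_volume_hausdorffMeasure_ne_zero 2
  set c := Measure.addHaarScalarFactor (volume : Measure (EuclideanSpace ℝ (Fin 2)))
    μH[((2 : ℕ) : ℝ)] with hc
  have hc0 : (0 : ℝ) < c := by
    have : 0 < c := pos_iff_ne_zero.mpr h0
    exact_mod_cast this
  refine ⟨(c : ℝ)⁻¹, inv_pos.mpr hc0, fun s => ?_⟩
  rw [Measure.euclideanHausdorffMeasure_def, ← hc, Measure.smul_apply, ENNReal.smul_def,
    smul_eq_mul, ENNReal.toReal_mul, ENNReal.coe_toReal, ← mul_assoc, inv_mul_cancel₀ hc0.ne',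
    one_mul]
  simp

/-- frame attached to a regular tetrahedron -/
theorem exists_frame (w : Fin 4 → E3) (ℓ : ℝ) (hℓ : 0 < ℓ)
    (hw : ∀ i j, i ≠ j → dist (w i) (w j) = ℓ) :
    ∃ (F : Frame) (o : E3), convexHull ℝ (range w) = F.tetra o (ℓ / 2) := by
  have d : ∀ i j, i ≠ j → (w i 0 - w j 0) ^ 2 + (w i 1 - w j 1) ^ 2 + (w i 2 - w j 2) ^ 2 = ℓ ^ 2 := by
    intro i j hij
    rw [← hw i j hij, dist_eq_norm, normsq3]
    simp
  have d01 := d 0 1 (by decide)
  have d02 := d 0 2 (by decide)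
  have d03 := d 0 3 (by decide)
  have d12 := d 1 2 (by decide)
  have d13 := d 1 3 (by decide)
  have d23 := d 2 3 (by decide)
  have h2 : Real.sqrt 2 ^ 2 = 2 := Real.sq_sqrt (by norm_num)
  have h2' : Real.sqrt 2 ≠ 0 := by positivity
  let F : Frame :=
    { e1 := ℓ⁻¹ • (w 0 - w 1)
      e2 := ℓ⁻¹ • (w 2 - w 3)
      e3 := (Real.sqrt 2 * ℓ)⁻¹ • (w 2 + w 3 - w 0 - w 1)
      h11 := by
        simp only [inner3, PiLp.smul_apply, PiLp.sub_apply, smul_eq_mul]
        field_simp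
        linear_combination d01
      h22 := by
        simp only [inner3, PiLp.smul_apply, PiLp.sub_apply, smul_eq_mul]
        field_simp
        linear_combination d23
      h33 := by
        simp only [inner3, PiLp.smul_apply, PiLp.sub_apply, PiLp.add_apply, smul_eq_mul]
        field_simp
        linear_combination d02 + d03 + d12 + d13 - d01 - d23 - ℓ ^ 2 * h2
      h12 := by
        simp only [inner3, PiLp.smul_apply, PiLp.sub_apply, smul_eq_mul]
        field_simp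
        linear_combination (1 / 2) * (d03 + d12 - d02 - d13)
      h13 := by
        simp only [inner3, PiLp.smul_apply, PiLp.sub_apply, PiLp.add_apply, smul_eq_mul]
        field_simp
        linear_combination (1 / 2) * (d12 + d13 - d02 - d03)
      h23 := by
        simp only [inner3, PiLp.smul_apply, PiLp.sub_apply, PiLp.add_apply, smul_eq_mul]
        field_simp
        linear_combination (1 / 2) * (d02 + d12 - d03 - d13) }
  refine ⟨F, (1 / 2 : ℝ) • (w 0 + w 1), ?_⟩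
  have e0 : (1 / 2 : ℝ) • (w 0 + w 1) + F.fr (ℓ / 2) 0 0 = w 0 := by
    ext i
    simp only [F, Frame.fr, PiLp.smul_apply, PiLp.sub_apply, PiLp.add_apply, smul_eq_mul]
    field_simp; ring
  have e1 : (1 / 2 : ℝ) • (w 0 + w 1) + F.fr (-(ℓ / 2)) 0 0 = w 1 := by
    ext i
    simp only [F, Frame.fr, PiLp.smul_apply, PiLp.sub_apply, PiLp.add_apply, smul_eq_mul]
    field_simp; ring
  have e2 : (1 / 2 : ℝ) • (w 0 + w 1) + F.fr 0 (ℓ / 2) (ℓ / 2 * Real.sqrt 2) = w 2 := by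
    ext i
    simp only [F, Frame.fr, PiLp.smul_apply, PiLp.sub_apply, PiLp.add_apply, smul_eq_mul]
    field_simp; ring
  have e3 : (1 / 2 : ℝ) • (w 0 + w 1) + F.fr 0 (-(ℓ / 2)) (ℓ / 2 * Real.sqrt 2) = w 3 := by
    ext i
    simp only [F, Frame.fr, PiLp.smul_apply, PiLp.sub_apply, PiLp.add_apply, smul_eq_mul]
    field_simp; ring
  rw [Frame.tetra, e0, e1, e2, e3]
  congr 1
  ext x
  simp only [mem_range, mem_insert_iff, mem_singleton_iff]
  constructor
  · rintro ⟨i, rfl⟩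
    fin_cases i <;> simp
  · rintro (rfl | rfl | rfl | rfl) <;> exact ⟨_, rfl⟩

theorem gr_strip (a b : ℝ) (A B : E3) : gr (a • A) (b • (B - A)) = |a| * |b| * gr A B := by
  rw [gr, gr, ← Real.sqrt_sq_eq_abs, ← Real.sqrt_sq_eq_abs, ← Real.sqrt_mul (sq_nonneg _),
    ← Real.sqrt_mul (by positivity)]
  congr 1
  simp only [normsq3, inner3, PiLp.smul_apply, PiLp.sub_apply, smul_eq_mul]
  ring

theorem strip_cover (M : ℕ) (hM : 0 < M) (P A B : E3) {z : ℝ × ℝ} (hz : z ∈ tri) :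
    ∃ k : Fin M, ∃ s ∈ Icc (0 : ℝ) 1, ∃ t ∈ Icc (0 : ℝ) 1, aff P A B z =
      (P + ((k : ℝ) / M) • A) + s • ((1 / M : ℝ) • A) + t • ((((k : ℝ) + 1) / M) • (B - A)) := by
  have hM' : (0 : ℝ) < M := by exact_mod_cast hM
  obtain ⟨h1, h2, h3⟩ := hz
  obtain ⟨k, hk, hk0, hk1⟩ := discrete_ivt (fun k => (z.1 + z.2) * M - k) M hM
    (by simp only [Nat.cast_zero, sub_zero]; positivity) (by nlinarith)
  push_cast at hk1
  refine ⟨⟨k, hk⟩, (z.1 + z.2) * M - k, ⟨hk0, by linarith⟩, z.2 * M / (k + 1),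
    ⟨by positivity, ?_⟩, ?_⟩
  · rw [div_le_one (by positivity)]; nlinarith
  · ext i
    simp only [aff, PiLp.smul_apply, PiLp.sub_apply, PiLp.add_apply, smul_eq_mul]
    field_simp; ring

theorem Frame.exists_par_cover (F : Frame) (o : E3) (c : ℝ) :
    ∃ (k : ℕ) (u P a b : Fin k → E3), (∀ i, ‖u i‖ = 1) ∧
      (∀ i, inner ℝ (P i) (u i) = 0 ∧ inner ℝ (a i) (u i) = 0 ∧ inner ℝ (b i) (u i) = 0) ∧
      (∀ X ∈ F.tetra o c, ∃ i, ∃ s ∈ Icc (0 : ℝ) 1, ∃ t ∈ Icc (0 : ℝ) 1, ∃ τ : ℝ,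
        X = P i + s • a i + t • b i + τ • u i) ∧
      ∑ i, gr (a i) (b i) ≤ c ^ 2 * Real.sqrt 2 * (1 / 2 - 1 / 10 ^ 9) := by
  obtain ⟨u, P, A, B, hu, hperp, hcov, hsum⟩ := F.exists_cover o c
  obtain ⟨M, hMv⟩ : ∃ M : ℕ, (M : ℝ) = 10 ^ 9 := ⟨10 ^ 9, by norm_num⟩
  have hM' : (0 : ℝ) < M := by rw [hMv]; positivity
  have hM : 0 < M := by exact_mod_cast hM'
  let ι := (Bool × Fin NN) × Fin M
  let e := Fintype.equivFin ι
  let P' : ι → E3 := fun j => P j.1 + ((j.2 : ℝ) / M) • A j.1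
  let a' : ι → E3 := fun j => (1 / M : ℝ) • A j.1
  let b' : ι → E3 := fun j => (((j.2 : ℝ) + 1) / M) • (B j.1 - A j.1)
  refine ⟨_, fun j => u (e.symm j).1, fun j => P' (e.symm j), fun j => a' (e.symm j),
    fun j => b' (e.symm j), fun j => hu _, fun j => ?_, fun X hX => ?_, ?_⟩
  · obtain ⟨h1, h2, h3⟩ := hperp (e.symm j).1
    simp [P', a', b', inner_add_left, inner_sub_left, inner_smul_left, h1, h2, h3]
  · obtain ⟨i, z, hz, τ, rfl⟩ := hcov X hX
    obtain ⟨k, s, hs, t, ht, h⟩ := strip_cover M hM (P i) (A i) (B i) hz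
    refine ⟨e (i, k), s, hs, t, ht, τ, ?_⟩
    simp only [Equiv.symm_apply_apply, P', a', b', h]
  · rw [Equiv.sum_comp e.symm (fun j => gr (a' j) (b' j)), Fintype.sum_prod_type]
    have hk : ∑ k : Fin M, ((k : ℝ) + 1) = M * (M + 1) / 2 := by
      rw [Fin.sum_univ_eq_sum_range (fun k => (k : ℝ) + 1)]
      clear * -
      induction M with
      | zero => simp
      | succ n ih => rw [Finset.sum_range_succ, ih]; push_cast; ring
    have : ∀ i, ∑ k : Fin M, gr (a' (i, k)) (b' (i, k)) = (1 + 1 / M) * (gr (A i) (B i) / 2) := by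
      intro i
      have : ∀ k : Fin M, gr (a' (i, k)) (b' (i, k)) =
          ((k : ℝ) + 1) * (gr (A i) (B i) / M ^ 2) := fun k => by
        simp only [a', b', gr_strip]
        rw [abs_of_pos (by positivity), abs_of_pos (by positivity)]
        field_simp
      simp only [this]
      rw [← Finset.sum_mul, hk]
      field_simp
    simp only [this]
    rw [← Finset.mul_sum]
    refine (mul_le_mul_of_nonneg_left hsum (by positivity)).trans ?_
    rw [hMv]
    have : 0 ≤ c ^ 2 * Real.sqrt 2 := by positivity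
    nlinarith

theorem open_bases {k : ℕ} (u P a b : Fin k → E3) (hu : ∀ i, ‖u i‖ = 1)
    (hperp : ∀ i, inner ℝ (P i) (u i) = 0 ∧ inner ℝ (a i) (u i) = 0 ∧ inner ℝ (b i) (u i) = 0)
    {η : ℝ} (hη : 0 < η) :
    ∃ B : Fin k → Set E3, (∀ i, Bornology.IsBounded (B i) ∧ ∃ O : Set E3, IsOpen O ∧
      B i = O ∩ {x | inner ℝ x (u i) = 0}) ∧
      (∀ i, ∀ s ∈ Icc (0 : ℝ) 1, ∀ t ∈ Icc (0 : ℝ) 1, P i + s • a i + t • b i ∈ B i) ∧
      ∑ i, ((μHE[2] : Measure E3) (B i)).toReal ≤ ∑ i, gr (a i) (b i) + η := by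
  have hη' : 0 < η / (k + 1) := by positivity
  have : ∀ i, ∃ B : Set E3, (Bornology.IsBounded B ∧ ∃ O : Set E3, IsOpen O ∧
      B = O ∩ {x | inner ℝ x (u i) = 0}) ∧ aff (P i) (a i) (b i) '' sq1 ⊆ B ∧
      ((μHE[2] : Measure E3) B).toReal ≤
        ((μHE[2] : Measure E3) (aff (P i) (a i) (b i) '' sq1)).toReal + η / (k + 1) := fun i => by
    refine exists_open_base (hu i) (isCompact_aff _ _ _ isCompact_sq1) ?_ hη'
    rintro _ ⟨z, -, rfl⟩
    obtain ⟨h1, h2, h3⟩ := hperp i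
    simp [aff, inner_add_left, inner_smul_left, h1, h2, h3]
  choose B hB1 hB2 hB3 using this
  refine ⟨B, hB1, fun i s hs t ht => hB2 i ⟨(s, t), ⟨hs, ht⟩, rfl⟩, ?_⟩
  refine (Finset.sum_le_sum fun i _ => hB3 i).trans ?_
  simp only [area_par, ENNReal.toReal_ofReal (gr_nonneg _ _), Finset.sum_add_distrib,
    Finset.sum_const, Finset.card_univ, Fintype.card_fin, nsmul_eq_mul]
  have : (k : ℝ) * (η / (k + 1)) ≤ η := by
    rw [mul_div_assoc', div_le_iff₀ (by positivity)]; nlinarith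
  linarith

theorem norm_cost {k : ℕ} (x y : Fin k → ℝ) (m : ℝ) (hm : 0 < m) (hx : ∀ i, 0 ≤ x i)
    (hy : ∀ i, m ≤ y i) (h : ∑ i, x i < m / 2) : ∑ i, x i / y i < 1 / 2 := by
  have h1 : ∑ i, x i / y i ≤ ∑ i, x i / m :=
    Finset.sum_le_sum fun i _ => div_le_div_of_nonneg_left (hx i) hm (hy i)
  rw [← Finset.sum_div] at h1
  refine h1.trans_lt ?_
  rw [div_lt_iff₀ hm]; linarith

end Crest.Agent.Cyl
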