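import Crest.Agent.Cyl.Ruled

/-!
From the local tiling to a global cover via the Besicovitch covering theorem.
-/

set_option autoImplicit false
set_option linter.unusedVariables false

open MeasureTheory Set Filter Metric
open scoped ENNReal Topology

noncomputable section

namespace Crest.Agent.Cyl

theorem sum_biUnion_le {ι α : Type*} [DecidableEq α] (s : Finset ι) (T : ι → Finset α)
    (f : α → ℝ) (hf : ∀ a, 0 ≤ f a) : ∑ a ∈ s.biUnion T, f a ≤ ∑ i ∈ s, ∑ a ∈ T i, f a := by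
  classical
  induction s using Finset.induction_on with
  | empty => simp
  | insert i s hi ih =>
    rw [Finset.biUnion_insert, Finset.sum_insert hi]
    have h1 := Finset.sum_union_inter (s₁ := T i) (s₂ := s.biUnion T) (f := f)
    have h2 : 0 ≤ ∑ a ∈ T i ∩ s.biUnion T, f a := Finset.sum_nonneg fun a _ => hf a
    linarith

theorem local_ball (V : E2 → E2) (x : E2) (A : E2 →L[ℝ] E2) (hV : HasFDerivAt V A x) {L : ℝ}
    (hL : 0 < L) (htr : LinearMap.trace ℝ _ A.toLinearMap = 0)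
    (hd1 : -(L ^ 2)⁻¹ < LinearMap.det A.toLinearMap) (hd2 : LinearMap.det A.toLinearMap ≤ 0)
    (J : E2 → ℝ) (hJ : Continuous J) (hJ0 : ∀ g, 0 < J g) {κ : ℝ} (hκ : 0 < κ) :
    ∀ᶠ r in 𝓝[>] (0 : ℝ), ∃ T : Finset Tile, (∀ t ∈ T, IsSq t) ∧
      (∀ p ∈ ball x ((1 + κ) * r), ∀ s : ℝ, |s| ≤ L → ∃ t ∈ T, (s, p + s • V p) ∈ cylS t) ∧
      ∑ t ∈ T, ‖t.2.1‖ ^ 2 * J t.2.2.2 ≤ (1 + κ) ^ 6 *
        (∫⁻ p in closedBall x r, ENNReal.ofReal (J (V p))).toReal := by
  obtain ⟨η, hη, hloc⟩ := local_cover A hL htr hd1 hd2 hκ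
  obtain ⟨δ1, hδ1, h1⟩ := Metric.eventually_nhds_iff.mp (hV.isLittleO.def hη)
  have hlt : J (V x) < (1 + κ) * J (V x) := by have := hJ0 (V x); nlinarith
  obtain ⟨δ2, hδ2, h2⟩ := Metric.eventually_nhds_iff.mp
    (hJ.continuousAt.eventually (gt_mem_nhds hlt))
  have hc : ContinuousAt (fun p => J (V p)) x := hJ.continuousAt.comp hV.continuousAt
  have hlt' : J (V x) / (1 + κ) < J (V x) := div_lt_self (hJ0 _) (by linarith)
  obtain ⟨δ3, hδ3, h3⟩ := Metric.eventually_nhds_iff.mp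
    ((hc.eventually (lt_mem_nhds hlt')).and (hc.eventually (gt_mem_nhds hlt)))
  have e1 : ∀ᶠ r in 𝓝[>] (0 : ℝ), (1 + κ) * r < δ1 := by
    apply Filter.Eventually.filter_mono nhdsWithin_le_nhds
    exact (by fun_prop : Continuous fun r : ℝ => (1 + κ) * r).continuousAt.eventually
      (gt_mem_nhds (by simpa using hδ1))
  have e2 : ∀ᶠ r in 𝓝[>] (0 : ℝ), ‖A‖ * ((1 + κ) * ((1 + κ) * r)) < δ2 := by
    apply Filter.Eventually.filter_mono nhdsWithin_le_nhds
    exact (by fun_prop : Continuous fun r : ℝ =>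
      ‖A‖ * ((1 + κ) * ((1 + κ) * r))).continuousAt.eventually (gt_mem_nhds (by simpa using hδ2))
  have e3 : ∀ᶠ r in 𝓝[>] (0 : ℝ), r < δ3 :=
    Filter.Eventually.filter_mono nhdsWithin_le_nhds (gt_mem_nhds hδ3)
  filter_upwards [e1, e2, e3, self_mem_nhdsWithin] with r hr1 hr2 hr3 hr
  have hr0 : 0 < r := hr
  obtain ⟨T, hT1, hT2, hT3⟩ := hloc x (V x) ((1 + κ) * r) (by positivity)
  refine ⟨T, fun t ht => (hT1 t ht).1, fun p hp s hs => ?_, ?_⟩
  · have hp' : ‖p - x‖ < (1 + κ) * r := by rwa [mem_ball, dist_eq_norm] at hp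
    have := h1 (show dist p x < δ1 from hp.trans hr1)
    obtain ⟨t, ht, h⟩ := hT2 (p - x) (V p - V x - A (p - x)) s hp'.le
      (this.trans (by gcongr)) hs
    refine ⟨t, ht, ?_⟩
    convert h using 3
    · abel
    · congr 1; abel
  · have hj := hJ0 (V x)
    have s1 : ∑ t ∈ T, ‖t.2.1‖ ^ 2 * J t.2.2.2 ≤ ∑ t ∈ T, ‖t.2.1‖ ^ 2 * ((1 + κ) * J (V x)) :=
      Finset.sum_le_sum fun t ht => mul_le_mul_of_nonneg_left (h2 (by
        rw [dist_eq_norm]; exact (hT1 t ht).2.trans_lt hr2)).le (sq_nonneg _)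
    rw [← Finset.sum_mul] at s1
    have s2 : ENNReal.ofReal (J (V x) / (1 + κ)) * volume (closedBall x r) ≤
        ∫⁻ p in closedBall x r, ENNReal.ofReal (J (V p)) := by
      rw [← setLIntegral_const]
      exact setLIntegral_mono' measurableSet_closedBall fun p hp =>
        ENNReal.ofReal_le_ofReal (h3 (lt_of_le_of_lt hp hr3)).1.le
    have s3 : ∫⁻ p in closedBall x r, ENNReal.ofReal (J (V p)) ≤
        ENNReal.ofReal ((1 + κ) * J (V x)) * volume (closedBall x r) := by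
      rw [← setLIntegral_const]
      exact setLIntegral_mono' measurableSet_closedBall fun p hp =>
        ENNReal.ofReal_le_ofReal (h3 (lt_of_le_of_lt hp hr3)).2.le
    have s4 := ENNReal.toReal_mono (ne_top_of_le_ne_top
      (ENNReal.mul_ne_top ENNReal.ofReal_ne_top measure_closedBall_lt_top.ne) s3) s2
    rw [EuclideanSpace.volume_closedBall_fin_two, ENNReal.toReal_mul, ENNReal.toReal_mul,
      ENNReal.toReal_pow, ENNReal.toReal_ofReal (by positivity), ENNReal.toReal_ofReal hr0.le,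
      ENNReal.toReal_ofReal Real.pi_pos.le] at s4
    refine s1.trans ((mul_le_mul_of_nonneg_right hT3 (by positivity)).trans ?_)
    refine le_trans (le_of_eq ?_) (mul_le_mul_of_nonneg_left s4 (by positivity))
    field_simp

theorem global_cover (D : Set E2) (hD : IsCompact D) (V : E2 → E2) (U : Set E2) (hU : IsOpen U)
    (hDU : D ⊆ U) (hV : ContDiffOn ℝ 1 V U) (L : ℝ) (hL : 0 < L)
    (htr : ∀ p ∈ D, LinearMap.trace ℝ _ (fderiv ℝ V p).toLinearMap = 0)
    (hdet : ∀ p ∈ D, -(L ^ 2)⁻¹ < LinearMap.det (fderiv ℝ V p).toLinearMap ∧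
      LinearMap.det (fderiv ℝ V p).toLinearMap ≤ 0)
    (J : E2 → ℝ) (hJ : Continuous J) (hJ0 : ∀ g, 0 < J g) (hJ1 : ∀ g, J g ≤ 1)
    (ε : ℝ) (hε : 0 < ε) :
    ∃ T : Finset Tile, (∀ t ∈ T, IsSq t) ∧
      (∀ p ∈ D, ∀ s : ℝ, |s| ≤ L → ∃ t ∈ T, (s, p + s • V p) ∈ cylS t) ∧
      ∑ t ∈ T, ‖t.2.1‖ ^ 2 * J t.2.2.2 ≤ (∫ p in D, J (V p)) + ε := by
  classical
  set I := ∫ p in D, J (V p) with hI
  have hI0 : 0 ≤ I := integral_nonneg fun p => (hJ0 _).le
  obtain ⟨κ, hκ1, hκ⟩ : ∃ κ : ℝ, (1 + κ) ^ 6 * (I + ε / 2) < I + ε ∧ 0 < κ := by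
    have : ∀ᶠ κ in 𝓝[>] (0 : ℝ), (1 + κ) ^ 6 * (I + ε / 2) < I + ε := by
      apply Filter.Eventually.filter_mono nhdsWithin_le_nhds
      exact (by fun_prop : Continuous fun κ : ℝ =>
        (1 + κ) ^ 6 * (I + ε / 2)).continuousAt.eventually (gt_mem_nhds (by simpa using hε))
    exact (this.and self_mem_nhdsWithin).exists
  let μ : Measure E2 := volume.withDensity fun p => ENNReal.ofReal (J (V p))
  have hμ : μ ≤ volume := by
    rw [Measure.le_iff]
    intro s hs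
    rw [withDensity_apply _ hs, ← setLIntegral_one]
    exact lintegral_mono fun p => ENNReal.ofReal_le_one.mpr (hJ1 _)
  haveI : IsLocallyFiniteMeasure μ := Measure.isLocallyFiniteMeasure_of_le hμ
  have hμD : μ D = ENNReal.ofReal I := by
    rw [withDensity_apply _ hD.measurableSet, hI, ofReal_integral_eq_lintegral_ofReal]
    · exact (hJ.comp_continuousOn (hV.continuousOn.mono hDU)).integrableOn_compact hD
    · exact Eventually.of_forall fun p => (hJ0 _).le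
  let P : E2 → ℝ → Prop := fun x r => 0 < r ∧ ∃ T : Finset Tile, (∀ t ∈ T, IsSq t) ∧
      (∀ p ∈ ball x ((1 + κ) * r), ∀ s : ℝ, |s| ≤ L → ∃ t ∈ T, (s, p + s • V p) ∈ cylS t) ∧
      ∑ t ∈ T, ‖t.2.1‖ ^ 2 * J t.2.2.2 ≤ (1 + κ) ^ 6 * (μ (closedBall x r)).toReal
  obtain ⟨t, r, -, htD, hr, hcov, hsum⟩ :=
    Besicovitch.exists_closedBall_covering_tsum_measure_le μ
      (ε := ENNReal.ofReal (ε / 2)) (by simpa using hε) (fun x => {r | P x r}) D (by
        intro x hx δ hδ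
        have hd : HasFDerivAt V (fderiv ℝ V x) x :=
          ((hV.contDiffAt (hU.mem_nhds (hDU hx))).differentiableAt one_ne_zero).hasFDerivAt
        have h1 := local_ball V x _ hd hL (htr x hx) (hdet x hx).1 (hdet x hx).2 J hJ hJ0 hκ
        obtain ⟨r, hr1, hr2⟩ := (h1.and (Ioo_mem_nhdsGT hδ)).exists
        refine ⟨r, ⟨hr2.1, ?_⟩, hr2⟩
        simp only [μ, withDensity_apply _ measurableSet_closedBall]
        exact hr1)
  obtain ⟨s, hs⟩ := hD.elim_finite_subcover (fun x : t => ball (x : E2) ((1 + κ) * r x))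
    (fun _ => isOpen_ball) (by
      intro p hp
      obtain ⟨x, hx, h⟩ := mem_iUnion₂.mp (hcov hp)
      have := (hr x hx).1
      exact mem_iUnion.mpr ⟨⟨x, hx⟩, closedBall_subset_ball (by nlinarith) h⟩)
  choose T hT1 hT2 hT3 using fun x : t => (hr x x.2).2
  refine ⟨s.biUnion T, fun a ha => ?_, fun p hp τ hτ => ?_, ?_⟩
  · obtain ⟨x, -, h⟩ := Finset.mem_biUnion.mp ha
    exact hT1 x a h
  · obtain ⟨x, hx, h⟩ := mem_iUnion₂.mp (hs hp)
    obtain ⟨a, ha, h'⟩ := hT2 x p h τ hτ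
    exact ⟨a, Finset.mem_biUnion.mpr ⟨x, hx, ha⟩, h'⟩
  · refine (sum_biUnion_le s T _ fun a => mul_nonneg (sq_nonneg _) (hJ0 _).le).trans ?_
    refine (Finset.sum_le_sum fun x _ => hT3 x).trans ?_
    rw [← Finset.mul_sum, ← ENNReal.toReal_sum fun x _ => measure_closedBall_lt_top.ne]
    refine le_trans (mul_le_mul_of_nonneg_left ?_ (by positivity)) hκ1.le
    apply ENNReal.toReal_le_of_le_ofReal (by positivity)
    rw [ENNReal.ofReal_add hI0 (by positivity), ← hμD]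
    exact (ENNReal.sum_le_tsum s).trans hsum

end Crest.Agent.Cyl
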