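import Mathlib

/-!
Real inequalities behind the improved cylinder cover of the regular tetrahedron.
-/

set_option autoImplicit false
set_option linter.unusedVariables false

noncomputable section

namespace Crest.Agent.Cyl

/-- tilt parameter -/
def gam : ℝ := 1 / 1000
/-- mesh -/
def del : ℝ := 1 / 1000000
/-- number of sectors -/
def NN : ℕ := 2000000
/-- nodes -/
def tt (k : ℕ) : ℝ := -1 + k * del
/-- midpoints -/
def mm (k : ℕ) : ℝ := (tt k + tt (k + 1)) / 2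
/-- shear coefficient -/
def aa (k : ℕ) : ℝ := (1 + tt k * tt (k + 1)) / 2
/-- cap -/
def cap (m : ℝ) : ℝ := 1 / 2 + gam ^ 2 * (1002 / 1000 * ((m ^ 2 + m ^ 4) / 4) + 2 / 1000)

theorem tt_zero : tt 0 = -1 := by simp [tt]
theorem tt_NN : tt NN = 1 := by simp [tt, NN, del]; norm_num
theorem tt_succ (k : ℕ) : tt (k + 1) = tt k + del := by simp [tt]; ring

theorem tt_bounds {k : ℕ} (hk : k < NN) : -1 ≤ tt k ∧ tt (k + 1) ≤ 1 := by
  have h1 : (k : ℝ) + 1 ≤ 2000000 := by exact_mod_cast hk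
  have h0 : (0 : ℝ) ≤ k := Nat.cast_nonneg k
  simp only [tt, del]; push_cast
  constructor <;> linarith

theorem discrete_ivt (φ : ℕ → ℝ) (n : ℕ) (hn : 0 < n) (h0 : 0 ≤ φ 0) (h1 : φ n ≤ 0) :
    ∃ i < n, 0 ≤ φ i ∧ φ (i + 1) ≤ 0 := by
  induction n with
  | zero => omega
  | succ n ih =>
    by_cases h : 0 ≤ φ n
    · exact ⟨n, by omega, h, h1⟩
    · rcases Nat.eq_zero_or_pos n with rfl | hn'
      · exact absurd h0 h
      · obtain ⟨i, hi, h2⟩ := ih hn' (not_le.mp h).le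
        exact ⟨i, by omega, h2⟩

theorem half_bound {m a b x y S Y ρ : ℝ} (hm : |m| ≤ 1) (ha0 : 0 ≤ a) (ha1 : a ≤ 1) (hb0 : 0 ≤ b)
    (hb1 : b ≤ 1) (hx : |x| ≤ 1) (hS : S = 1 / 2 + ρ) (hρ : 0 ≤ ρ) (hS2 : S ≤ 2)
    (hY : |Y - m * S| ≤ del / 2 * S) (hy : |y - Y| = gam * a * |x|) :
    b * m * y ≤ b * (m ^ 2 / 2) + ρ + del + gam := by
  have hg : (0 : ℝ) ≤ gam := by norm_num [gam]
  have hd : (0 : ℝ) ≤ del := by norm_num [del]
  have h1 : |y - Y| ≤ gam := by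
    rw [hy]
    have : a * |x| ≤ 1 := mul_le_one₀ ha1 (abs_nonneg _) hx
    nlinarith
  have h2 : |Y - m * S| ≤ del := hY.trans (by nlinarith)
  have h3 : m * (y - Y) ≤ gam := by
    have := (le_abs_self (m * (y - Y))).trans (abs_mul m (y - Y)).le
    have h' : |m| * |y - Y| ≤ 1 * gam := mul_le_mul hm h1 (abs_nonneg _) zero_le_one
    linarith
  have h4 : m * (Y - m * S) ≤ del := by
    have := (le_abs_self (m * (Y - m * S))).trans (abs_mul m (Y - m * S)).le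
    have h' : |m| * |Y - m * S| ≤ 1 * del := mul_le_mul hm h2 (abs_nonneg _) zero_le_one
    linarith
  have h5 : m ^ 2 ≤ 1 := by
    rw [← sq_abs]; nlinarith [abs_nonneg m]
  have h6 : m ^ 2 * ρ ≤ ρ := by nlinarith
  have h7 : m * y ≤ m ^ 2 / 2 + (ρ + del + gam) := by
    subst hS; nlinarith
  have h8 : b * (m * y) ≤ b * (m ^ 2 / 2 + (ρ + del + gam)) := mul_le_mul_of_nonneg_left h7 hb0
  have h9 : b * (ρ + del + gam) ≤ ρ + del + gam := by
    have : 0 ≤ ρ + del + gam := by positivity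
    nlinarith
  nlinarith

theorem cover_ineq {m m' a b x y S S' X Y : ℝ} (hm : |m| ≤ 1) (hm' : |m'| ≤ 1)
    (ha0 : 0 ≤ a) (ha1 : a ≤ (1 + m ^ 2) / 2) (hb0 : 0 ≤ b) (hb1 : b ≤ (1 + m' ^ 2) / 2)
    (hx : |x| ≤ 1) (hy : |y| ≤ 1)
    (hY : |Y - m * S| ≤ del / 2 * S) (hX : |X - m' * S'| ≤ del / 2 * S')
    (eY : Y = y + gam * a * x) (eX : X = x - gam * b * y)
    (eS : S + S' = 1 + gam * (m * x - m' * y)) : S ≤ cap m ∨ S' ≤ cap m' := by
  by_contra hcon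
  push Not at hcon
  obtain ⟨h1, h2⟩ := hcon
  have hg : (0 : ℝ) ≤ gam := by norm_num [gam]
  have hd : (0 : ℝ) ≤ del := by norm_num [del]
  have m2 : m ^ 2 ≤ 1 := by rw [← sq_abs]; nlinarith [abs_nonneg m]
  have m2' : m' ^ 2 ≤ 1 := by rw [← sq_abs]; nlinarith [abs_nonneg m']
  set r := gam ^ 2 * (1002 / 1000 * ((m ^ 2 + m ^ 4) / 4) + 2 / 1000) with hr
  set r' := gam ^ 2 * (1002 / 1000 * ((m' ^ 2 + m' ^ 4) / 4) + 2 / 1000) with hr'
  have hr0 : 0 ≤ r := by positivity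
  have hr0' : 0 ≤ r' := by positivity
  obtain ⟨ρ, hρ⟩ : ∃ ρ, S = 1 / 2 + ρ := ⟨S - 1 / 2, by ring⟩
  obtain ⟨ρ', hρ'⟩ : ∃ ρ', S' = 1 / 2 + ρ' := ⟨S' - 1 / 2, by ring⟩
  have k1 : r < ρ := by simp only [cap] at h1; linarith
  have k2 : r' < ρ' := by simp only [cap] at h2; linarith
  have mx : |m * x| ≤ 1 := by rw [abs_mul]; exact mul_le_one₀ hm (abs_nonneg _) hx
  have my : |m' * y| ≤ 1 := by rw [abs_mul]; exact mul_le_one₀ hm' (abs_nonneg _) hy
  have hSS : S + S' ≤ 1 + 2 * gam := by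
    rw [eS]
    have := (abs_le.mp mx).2
    have := (abs_le.mp my).1
    nlinarith
  have hg1 : gam ≤ 1 / 2 := by norm_num [gam]
  have b1 := half_bound (m := m) (a := a) (b := b) (x := x) (y := y) (S := S) (Y := Y) (ρ := ρ) hm
    ha0 (by linarith) hb0 (by linarith) hx hρ (by linarith) (by linarith) hY
    (by rw [eY, show y - (y + gam * a * x) = -(gam * a * x) by ring, abs_neg, abs_mul,
      abs_of_nonneg (mul_nonneg hg ha0)])
  have b2 := half_bound (m := m') (a := b) (b := a) (x := y) (y := x) (S := S') (Y := X) (ρ := ρ')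
    hm' hb0 (by linarith) ha0 (by linarith) hy hρ' (by linarith) (by linarith) hX
    (by rw [eX, show x - (x - gam * b * y) = gam * b * y by ring, abs_mul,
      abs_of_nonneg (mul_nonneg hg hb0)])
  have e1 : m * (X - m' * S') ≤ del / 2 * S' := by
    have := (le_abs_self (m * (X - m' * S'))).trans (abs_mul m _).le
    have h' : |m| * |X - m' * S'| ≤ 1 * (del / 2 * S') :=
      mul_le_mul hm hX (abs_nonneg _) zero_le_one
    linarith
  have e2 : -(m' * (Y - m * S)) ≤ del / 2 * S := by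
    have := (neg_le_abs (m' * (Y - m * S))).trans (abs_mul m' _).le
    have h' : |m'| * |Y - m * S| ≤ 1 * (del / 2 * S) :=
      mul_le_mul hm' hY (abs_nonneg _) zero_le_one
    linarith
  have e3 : m * m' * (ρ' - ρ) ≤ ρ + ρ' := by
    have hmm : |m * m'| ≤ 1 := by rw [abs_mul]; exact mul_le_one₀ hm (abs_nonneg _) hm'
    have := abs_le.mp hmm
    have g1 : 0 ≤ (1 - m * m') * ρ' := mul_nonneg (by linarith) (by linarith)
    have g2 : 0 ≤ (1 + m * m') * ρ := mul_nonneg (by linarith) (by linarith)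
    linarith
  have e4 : b * (m ^ 2 / 2) + a * (m' ^ 2 / 2) ≤ (m ^ 2 + m ^ 4) / 4 + (m' ^ 2 + m' ^ 4) / 4 := by
    have f1 : b * (m ^ 2 / 2) ≤ (1 + m' ^ 2) / 2 * (m ^ 2 / 2) :=
      mul_le_mul_of_nonneg_right hb1 (by positivity)
    have f2 : a * (m' ^ 2 / 2) ≤ (1 + m ^ 2) / 2 * (m' ^ 2 / 2) :=
      mul_le_mul_of_nonneg_right ha1 (by positivity)
    have f3 := sq_nonneg (m ^ 2 - m' ^ 2)
    clear * - f1 f2 f3
    nlinarith
  have key : ρ + ρ' = gam * (m * m' * (ρ' - ρ) + m * (X - m' * S') - m' * (Y - m * S))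
      + gam ^ 2 * (b * m * y + a * m' * x) := by
    have : ρ + ρ' = gam * (m * x - m' * y) := by linarith
    rw [this, eX, eY, hρ, hρ']; ring
  have e5 : del / 2 * S' + del / 2 * S ≤ del := by
    have : del / 2 * (S + S') ≤ del / 2 * 2 :=
      mul_le_mul_of_nonneg_left (by linarith) (by positivity)
    linarith
  have p1 : 0 ≤ (m ^ 2 + m ^ 4) / 4 := by positivity
  have p2 : 0 ≤ (m' ^ 2 + m' ^ 4) / 4 := by positivity
  have hgv : gam = 1 / 1000 := rfl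
  have hdv : del = 1 / 1000000 := rfl
  rw [hgv] at key b1 b2 hr hr'
  rw [hdv] at b1 b2 e1 e2 e5
  generalize m * m' * (ρ' - ρ) = T1 at key e3
  generalize m * (X - m' * S') = T2 at key e1
  generalize m' * (Y - m * S) = T3 at key e2
  generalize b * m * y = T4 at key b1
  generalize a * m' * x = T5 at key b2
  generalize b * (m ^ 2 / 2) = T6 at e4 b1
  generalize a * (m' ^ 2 / 2) = T7 at e4 b2
  generalize (m ^ 2 + m ^ 4) / 4 = T8 at e4 p1 hr
  generalize (m' ^ 2 + m' ^ 4) / 4 = T9 at e4 p2 hr'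
  clear_value r r'
  linarith

/-- telescoping polynomial -/
def PP (t : ℝ) : ℝ :=
  t / 8 + gam ^ 2 / 2 * (-(29 / 1000) * t - 6 / 100 * (t ^ 3 / 3) + 22 / 100 * (t ^ 5 / 5))

theorem inv_sqrt_le {q : ℝ} (h0 : 0 ≤ q) (h1 : q ≤ 1 / 1000) :
    1 / Real.sqrt (1 + q) ≤ 1 - 499 / 1000 * q := by
  have hpos : 0 < 1 - 499 / 1000 * q := by linarith
  rw [div_le_iff₀ (Real.sqrt_pos.mpr (by linarith)), ← div_le_iff₀' hpos]
  apply Real.le_sqrt_of_sq_le
  rw [div_pow, div_le_iff₀ (by positivity)]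
  nlinarith [mul_nonneg h0 h0, mul_nonneg h0 (mul_nonneg h0 h0)]

theorem mm_aa {k : ℕ} (hk : k < NN) :
    |mm k| ≤ 1 ∧ 0 ≤ aa k ∧ aa k = (1 + mm k ^ 2 - del ^ 2 / 4) / 2 ∧
      tt k = mm k - del / 2 ∧ tt (k + 1) = mm k + del / 2 := by
  obtain ⟨h1, h2⟩ := tt_bounds hk
  have h3 := tt_succ k
  have hd : (0 : ℝ) ≤ del := by norm_num [del]
  refine ⟨?_, ?_, ?_, ?_, ?_⟩
  · rw [abs_le, mm]; constructor <;> linarith
  · rw [aa]; nlinarith
  · rw [aa, mm, h3]; ring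
  · rw [mm, h3]; ring
  · rw [mm, h3]; ring

theorem term_le {k : ℕ} (hk : k < NN) :
    del * cap (mm k) ^ 2 / 2 / Real.sqrt (1 + gam ^ 2 * (aa k ^ 2 + 2 * mm k ^ 2)) ≤
      PP (tt (k + 1)) - PP (tt k) := by
  obtain ⟨hm, ha0, ha, h0, h1⟩ := mm_aa hk
  rw [h0, h1]
  set m := mm k
  set a := aa k
  have m2 : m ^ 2 ≤ 1 := by rw [← sq_abs]; nlinarith [abs_nonneg m]
  have m0 : 0 ≤ m ^ 2 := sq_nonneg m
  have m4 : m ^ 4 ≤ 1 := by nlinarith
  have m40 : 0 ≤ m ^ 4 := by positivity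
  have ha1 : a ≤ 1 := by rw [ha]; nlinarith [sq_nonneg del]
  set q := gam ^ 2 * (a ^ 2 + 2 * m ^ 2) with hq
  have hq0 : 0 ≤ q := by positivity
  have hq1 : q ≤ 1 / 1000 := by
    have : a ^ 2 ≤ 1 := by nlinarith
    simp only [hq, gam]; nlinarith
  have hs := inv_sqrt_le hq0 hq1
  set r := gam ^ 2 * (1002 / 1000 * ((m ^ 2 + m ^ 4) / 4) + 2 / 1000) with hr
  have hr0 : 0 ≤ r := by positivity
  have hr1 : r ≤ 1 / 1000000 := by simp only [hr, gam]; nlinarith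
  have hc : cap m = 1 / 2 + r := rfl
  have hd : (0 : ℝ) ≤ del := by norm_num [del]
  have s1 : del * cap m ^ 2 / 2 / Real.sqrt (1 + q) ≤ del * cap m ^ 2 / 2 * (1 - 499 / 1000 * q) := by
    rw [div_eq_mul_one_div (del * cap m ^ 2 / 2)]
    exact mul_le_mul_of_nonneg_left hs (by positivity)
  have s2 : cap m ^ 2 * (1 - 499 / 1000 * q) ≤ 1 / 4 + r + 1 / 10 ^ 12 - 499 / 4000 * q := by
    rw [hc]
    nlinarith [mul_nonneg hr0 hq0, mul_nonneg (mul_nonneg hr0 hr0) hq0]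
  have s3 : (1 + m ^ 2) ^ 2 / 4 - 1 / 10 ^ 12 ≤ a ^ 2 := by
    rw [ha]; simp only [del]; nlinarith
  refine s1.trans ?_
  have s4 : del * cap m ^ 2 / 2 * (1 - 499 / 1000 * q) ≤
      del / 2 * (1 / 4 + r + 1 / 10 ^ 12 - 499 / 4000 * q) := by
    have := mul_le_mul_of_nonneg_left s2 (by positivity : 0 ≤ del / 2)
    linarith
  refine s4.trans ?_
  simp only [hr, hq, PP, gam, del]
  nlinarith

theorem sum_term_le : ∑ k ∈ Finset.range NN,
    del * cap (mm k) ^ 2 / 2 / Real.sqrt (1 + gam ^ 2 * (aa k ^ 2 + 2 * mm k ^ 2)) ≤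
      1 / 4 - 1 / (2 * 10 ^ 8) := by
  refine (Finset.sum_le_sum fun k hk => term_le (Finset.mem_range.mp hk)).trans ?_
  rw [Finset.sum_range_sub (fun k => PP (tt k)), tt_NN, tt_zero]
  norm_num [PP, gam]

end Crest.Agent.Cyl
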