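import Crest.Agent.Cyl.Tile

/-!
Covers of ruled sets by sheared square cylinders.
-/

set_option autoImplicit false
set_option linter.unusedVariables false

open MeasureTheory Set Filter
open scoped ENNReal Topology

noncomputable section

namespace Crest.Agent.Cyl

/-- a tile: corner, two sides, velocity -/
abbrev Tile := E2 × E2 × E2 × E2

def IsSq (t : Tile) : Prop := t.2.1 ≠ 0 ∧ ‖t.2.2.1‖ = ‖t.2.1‖ ∧ inner ℝ t.2.1 t.2.2.1 = 0

def cylS (t : Tile) : Set (ℝ × E2) :=
  {z | ∃ x ∈ Icc (0 : ℝ) 1, ∃ y ∈ Icc (0 : ℝ) 1,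
    z.2 = t.1 + x • t.2.1 + y • t.2.2.1 + z.1 • t.2.2.2}

set_option maxHeartbeats 1000000 in
theorem local_cover (A : E2 →L[ℝ] E2) {L : ℝ} (hL : 0 < L)
    (htr : LinearMap.trace ℝ _ A.toLinearMap = 0)
    (hd1 : -(L ^ 2)⁻¹ < LinearMap.det A.toLinearMap) (hd2 : LinearMap.det A.toLinearMap ≤ 0)
    {κ : ℝ} (hκ : 0 < κ) :
    ∃ η > 0, ∀ (p0 v0 : E2) (r : ℝ), 0 < r → ∃ T : Finset Tile,
      (∀ t ∈ T, IsSq t ∧ ‖t.2.2.2 - v0‖ ≤ ‖A‖ * ((1 + κ) * r)) ∧
      (∀ (q e : E2) (s : ℝ), ‖q‖ ≤ r → ‖e‖ ≤ η * r → |s| ≤ L →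
        ∃ t ∈ T, (s, p0 + q + s • (v0 + A q + e)) ∈ cylS t) ∧
      ∑ t ∈ T, ‖t.2.1‖ ^ 2 ≤ Real.pi * ((1 + κ) * r) ^ 2 := by
  classical
  obtain ⟨c, s, α, β, hcs, hA1, hA2, hαβ⟩ := exists_offdiag A htr
  have hab0 : 0 ≤ α * β := by linarith
  have hab1 : L ^ 2 * (α * β) < 1 := by
    have : α * β < (L ^ 2)⁻¹ := by linarith
    calc L ^ 2 * (α * β) < L ^ 2 * (L ^ 2)⁻¹ := by gcongr
      _ = 1 := by field_simp
  set d := 1 - L ^ 2 * (α * β) with hd
  have hd0 : 0 < d := by linarith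
  set C := (1 + L * |α| + L * |β|) / d with hC
  have hC0 : 0 < C := by positivity
  refine ⟨κ / (4 * C * L), by positivity, fun p0 v0 r hr => ?_⟩
  set η := κ / (4 * C * L) with hη
  have hη0 : 0 < η := by positivity
  set σ := κ * r / (4 * C + 4) with hσ
  have hσ0 : 0 < σ := by positivity
  set K := C * (L * (η * r) / σ + 1) with hK
  have hK0 : 0 < K := by positivity
  set ρ := r / σ + 2 * K with hρ
  have hρ0 : 0 ≤ ρ := by positivity
  have hρσ : σ * (ρ + 2) = (1 + κ) * r := by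
    simp only [hρ, hK, hη, hσ]; field_simp; ring
  clear_value ρ K σ η C d
  clear hσ hη
  obtain ⟨T, hT, hcard⟩ := lattice_count ρ hρ0
  set f1 : E2 := !₂[c, s] with hf1
  set f2 : E2 := !₂[-s, c] with hf2
  have hnorm : ∀ x y : ℝ, ‖x • f1 + y • f2‖ ^ 2 = x ^ 2 + y ^ 2 := fun x y => by
    simp only [normsq2, hf1, hf2, PiLp.add_apply, PiLp.smul_apply, smul_eq_mul,
      Matrix.cons_val_zero, Matrix.cons_val_one]
    linear_combination (x ^ 2 + y ^ 2) * hcs
  have hcoord : ∀ v : E2, ∃ x y : ℝ, v = x • f1 + y • f2 := fun v => by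
    refine ⟨c * v 0 + s * v 1, -s * v 0 + c * v 1, ?_⟩
    ext i; fin_cases i
    · simp only [hf1, hf2, PiLp.add_apply, PiLp.smul_apply, smul_eq_mul, Fin.zero_eta,
        Matrix.cons_val_zero]
      linear_combination (-v 0) * hcs
    · simp only [hf1, hf2, PiLp.add_apply, PiLp.smul_apply, smul_eq_mul, Fin.mk_one,
        Matrix.cons_val_one, Matrix.cons_val_zero]
      linear_combination (-v 1) * hcs
  have hn1 : ‖σ • f1‖ = σ := by
    have := hnorm σ 0
    rw [zero_smul, add_zero] at this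
    rw [← Real.sqrt_sq (norm_nonneg _), this]; simp [hσ0.le]
  have hn2 : ‖σ • f2‖ = σ := by
    have := hnorm 0 σ
    rw [zero_smul, zero_add] at this
    rw [← Real.sqrt_sq (norm_nonneg _), this]; simp [hσ0.le]
  have hperp : inner ℝ (σ • f1) (σ • f2) = 0 := by
    simp only [inner2, hf1, hf2, PiLp.smul_apply, smul_eq_mul,
      Matrix.cons_val_zero, Matrix.cons_val_one]
    ring
  clear_value f1 f2
  clear hf1 hf2
  let pos : ℤ × ℤ → E2 := fun z => (σ * z.1) • f1 + (σ * z.2) • f2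
  let til : ℤ × ℤ → Tile := fun z => (p0 + pos z, σ • f1, σ • f2, v0 + A (pos z))
  refine ⟨T.image til, ?_, ?_, ?_⟩
  · intro t ht
    obtain ⟨z, hz, rfl⟩ := Finset.mem_image.mp ht
    refine ⟨⟨fun h => ?_, by simp only [til, hn1, hn2], ?_⟩, ?_⟩
    · simp only [til] at h
      rw [h, norm_zero] at hn1
      exact hσ0.ne hn1
    · exact hperp
    · simp only [til, add_sub_cancel_left]
      refine (A.le_opNorm _).trans (mul_le_mul_of_nonneg_left ?_ (norm_nonneg _))
      refine (abs_le_of_sq_le_sq' ?_ (by positivity)).2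
      have h := (hT z).mp hz
      rw [hnorm, ← hρσ]
      have : σ ^ 2 * ((z.1 : ℝ) ^ 2 + (z.2 : ℝ) ^ 2) ≤ σ ^ 2 * (ρ + 2) ^ 2 :=
        mul_le_mul_of_nonneg_left (by nlinarith) (sq_nonneg _)
      linarith
  · intro q e τ hq he hτ
    obtain ⟨q1, q2, rfl⟩ := hcoord q
    obtain ⟨e1, e2, rfl⟩ := hcoord e
    have hq' : q1 ^ 2 + q2 ^ 2 ≤ r ^ 2 := by
      rw [← hnorm]; exact pow_le_pow_left₀ (norm_nonneg _) hq 2
    have he' : e1 ^ 2 + e2 ^ 2 ≤ (η * r) ^ 2 := by
      rw [← hnorm]; exact pow_le_pow_left₀ (norm_nonneg _) he 2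
    have he1 : |e1| ≤ η * r := abs_le_of_sq_le_sq (by nlinarith) (by positivity)
    have he2 : |e2| ≤ η * r := abs_le_of_sq_le_sq (by nlinarith) (by positivity)
    have hτ2 : τ ^ 2 ≤ L ^ 2 := sq_le_sq' (abs_le.mp hτ).1 (abs_le.mp hτ).2
    have hdd : d ≤ 1 - τ * α * (τ * β) := by
      have := mul_le_mul_of_nonneg_right hτ2 hab0
      linarith
    obtain ⟨m, n, hx, hy⟩ := shear_tile (τ * α) (τ * β) ((q1 + τ * α * q2 + τ * e1) / σ)
      ((q2 + τ * β * q1 + τ * e2) / σ) (by nlinarith [mul_nonneg (sq_nonneg τ) hab0])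
      (by linarith)
    set x := (q1 + τ * α * q2 + τ * e1) / σ - m - τ * α * n with hxd
    set y := (q2 + τ * β * q1 + τ * e2) / σ - n - τ * β * m with hyd
    clear_value x y
    refine ⟨til (m, n), Finset.mem_image_of_mem _ ((hT _).mpr ?_), x, hx, y, hy, ?_⟩
    · set M := L * (η * r) / σ + 1 with hM
      have hE : ∀ e z : ℝ, |e| ≤ η * r → z ∈ Icc (0 : ℝ) 1 → |τ * e / σ - z| ≤ M := by
        intro e z he hz
        refine (abs_sub _ _).trans (add_le_add ?_ (abs_le.mpr ⟨by linarith [hz.1], hz.2⟩))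
        rw [abs_div, abs_mul, abs_of_pos hσ0]
        gcongr
      have hE1 := hE e1 x he1 hx
      have hE2 := hE e2 y he2 hy
      have hM0 : 0 ≤ M := by positivity
      have key : ∀ u E E' γ : ℝ, u * (1 - τ * α * (τ * β)) = E - τ * γ * E' → |E| ≤ M →
          |E'| ≤ M → |γ| ≤ |α| + |β| → |u| ≤ K := by
        intro u E E' γ h h1 h2 h3
        have h4 : |u| * d ≤ |E - τ * γ * E'| := by
          rw [← h, abs_mul]
          exact mul_le_mul_of_nonneg_left (hdd.trans (le_abs_self _)) (abs_nonneg _)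
        have h5 : |E - τ * γ * E'| ≤ M + L * (|α| + |β|) * M := by
          refine (abs_sub _ _).trans (add_le_add h1 ?_)
          rw [abs_mul, abs_mul]
          gcongr
        rw [hK, hC, div_mul_eq_mul_div, le_div_iff₀ hd0]
        linarith
      have hu := key (m - q1 / σ) _ _ α (by simp only [hxd, hyd]; field_simp; ring) hE1 hE2
        (le_add_of_nonneg_right (abs_nonneg _))
      have hw := key (n - q2 / σ) _ _ β (by simp only [hxd, hyd]; field_simp; ring) hE2 hE1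
        (le_add_of_nonneg_left (abs_nonneg _))
      have := disc_add (a := q1 / σ) (b := q2 / σ) (R := r / σ) (by positivity)
        (by rw [div_pow, div_pow, div_pow, ← add_div]; gcongr) hu hw
      rw [hρ]
      simpa using this
    · have hx' : σ * x = q1 + τ * α * q2 + τ * e1 - σ * m - σ * (τ * α * n) := by
        simp only [hxd]; field_simp
      have hy' : σ * y = q2 + τ * β * q1 + τ * e2 - σ * n - σ * (τ * β * m) := by
        simp only [hyd]; field_simp
      simp only [til, pos, map_add, map_smul, hA1, hA2, smul_smul]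
      rw [mul_comm x, mul_comm y, hx', hy']
      module
  · refine (Finset.sum_image_le_of_nonneg (fun _ _ => sq_nonneg _)).trans ?_
    simp only [til, hn1, Finset.sum_const, nsmul_eq_mul]
    rw [← hρσ]
    have := mul_le_mul_of_nonneg_right hcard (sq_nonneg σ)
    linarith

end Crest.Agent.Cyl
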