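import Crest.Agent.Cyl.Area
import Crest.Agent.Cyl.Ineq

/-!
The improved cylinder cover of a regular tetrahedron, in an arbitrary orthonormal frame.
-/

set_option autoImplicit false
set_option linter.unusedVariables false

open MeasureTheory Set
open scoped ENNReal Topology

noncomputable section

namespace Crest.Agent.Cyl

/-- orthonormal frame of three-space -/
structure Frame where
  e1 : E3
  e2 : E3
  e3 : E3
  h11 : inner ℝ e1 e1 = 1
  h22 : inner ℝ e2 e2 = 1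
  h33 : inner ℝ e3 e3 = 1
  h12 : inner ℝ e1 e2 = 0
  h13 : inner ℝ e1 e3 = 0
  h23 : inner ℝ e2 e3 = 0

namespace Frame

variable (F : Frame)

/-- vector with given coordinates -/
def fr (x y z : ℝ) : E3 := x • F.e1 + y • F.e2 + z • F.e3

theorem det_sq : det3 F.e1 F.e2 F.e3 ^ 2 = 1 := by
  have h11 := F.h11
  have h22 := F.h22
  have h33 := F.h33
  have h12 := F.h12
  have h13 := F.h13
  have h23 := F.h23
  have : det3 F.e1 F.e2 F.e3 ^ 2 =
      inner ℝ F.e1 F.e1 * (inner ℝ F.e2 F.e2 * inner ℝ F.e3 F.e3 - inner ℝ F.e2 F.e3 ^ 2)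
      - inner ℝ F.e1 F.e2 * (inner ℝ F.e1 F.e2 * inner ℝ F.e3 F.e3
        - inner ℝ F.e2 F.e3 * inner ℝ F.e1 F.e3)
      + inner ℝ F.e1 F.e3 * (inner ℝ F.e1 F.e2 * inner ℝ F.e2 F.e3
        - inner ℝ F.e2 F.e2 * inner ℝ F.e1 F.e3) := by
    simp only [inner3, det3]; ring
  rw [this, h11, h22, h33, h12, h13, h23]; norm_num

theorem abs_det : |det3 F.e1 F.e2 F.e3| = 1 := by
  have := F.det_sq
  rw [← sq_abs] at this
  nlinarith [abs_nonneg (det3 F.e1 F.e2 F.e3)]

theorem det_fr (a1 a2 a3 b1 b2 b3 c1 c2 c3 : ℝ) :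
    det3 (F.fr a1 a2 a3) (F.fr b1 b2 b3) (F.fr c1 c2 c3) =
      (a1 * (b2 * c3 - b3 * c2) + a2 * (b3 * c1 - b1 * c3) + a3 * (b1 * c2 - b2 * c1)) *
        det3 F.e1 F.e2 F.e3 := by
  simp only [det3, fr, PiLp.add_apply, PiLp.smul_apply, smul_eq_mul]; ring

theorem abs_det_fr (a1 a2 a3 b1 b2 b3 c1 c2 c3 : ℝ) :
    |det3 (F.fr a1 a2 a3) (F.fr b1 b2 b3) (F.fr c1 c2 c3)| =
      |a1 * (b2 * c3 - b3 * c2) + a2 * (b3 * c1 - b1 * c3) + a3 * (b1 * c2 - b2 * c1)| := by
  rw [det_fr, abs_mul, abs_det, mul_one]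

theorem inner_fr (a1 a2 a3 b1 b2 b3 : ℝ) :
    inner ℝ (F.fr a1 a2 a3) (F.fr b1 b2 b3) = a1 * b1 + a2 * b2 + a3 * b3 := by
  have h21 : inner ℝ F.e2 F.e1 = 0 := by rw [real_inner_comm, F.h12]
  have h31 : inner ℝ F.e3 F.e1 = 0 := by rw [real_inner_comm, F.h13]
  have h32 : inner ℝ F.e3 F.e2 = 0 := by rw [real_inner_comm, F.h23]
  simp only [fr, inner_add_left, inner_add_right, inner_smul_left, inner_smul_right, conj_trivial,
    F.h11, F.h22, F.h33, F.h12, F.h13, F.h23, h21, h31, h32]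
  ring

theorem normsq_fr (x y z : ℝ) : ‖F.fr x y z‖ ^ 2 = x ^ 2 + y ^ 2 + z ^ 2 := by
  rw [← real_inner_self_eq_norm_sq, inner_fr]; ring

theorem exists_fr (v : E3) : ∃ x y z, v = F.fr x y z := by
  have h := F.det_sq
  refine ⟨det3 v F.e2 F.e3 * det3 F.e1 F.e2 F.e3, det3 F.e1 v F.e3 * det3 F.e1 F.e2 F.e3,
    det3 F.e1 F.e2 v * det3 F.e1 F.e2 F.e3, ?_⟩
  have key : ∀ i : Fin 3, det3 F.e1 F.e2 F.e3 * v i =
      det3 v F.e2 F.e3 * F.e1 i + det3 F.e1 v F.e3 * F.e2 i + det3 F.e1 F.e2 v * F.e3 i := by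
    intro i
    fin_cases i <;> simp only [det3, Fin.zero_eta, Fin.mk_one, Fin.reduceFinMk] <;> ring
  ext i
  simp only [fr, PiLp.add_apply, PiLp.smul_apply, smul_eq_mul]
  linear_combination (det3 F.e1 F.e2 F.e3) * key i - v i * h

theorem fr_sub (a1 a2 a3 b1 b2 b3 : ℝ) :
    F.fr a1 a2 a3 - F.fr b1 b2 b3 = F.fr (a1 - b1) (a2 - b2) (a3 - b3) := by
  simp only [fr]; module

theorem smul_fr (c a1 a2 a3 : ℝ) : c • F.fr a1 a2 a3 = F.fr (c * a1) (c * a2) (c * a3) := by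
  simp only [fr]; module

/-- the tetrahedron -/
def tetra (o : E3) (c : ℝ) : Set E3 :=
  convexHull ℝ {o + F.fr c 0 0, o + F.fr (-c) 0 0, o + F.fr 0 c (c * Real.sqrt 2),
    o + F.fr 0 (-c) (c * Real.sqrt 2)}

theorem mem_tetra {o : E3} {c : ℝ} {X : E3} (hX : X ∈ F.tetra o c) :
    ∃ x y s : ℝ, |x| ≤ 1 - s ∧ |y| ≤ s ∧ X = o + F.fr (c * x) (c * y) (c * Real.sqrt 2 * s) := by
  have : F.tetra o c ⊆ {X | ∃ x y s : ℝ, |x| ≤ 1 - s ∧ |y| ≤ s ∧
      X = o + F.fr (c * x) (c * y) (c * Real.sqrt 2 * s)} := by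
    apply convexHull_min
    · rintro X (rfl | rfl | rfl | rfl)
      · exact ⟨1, 0, 0, by simp, by simp, by simp⟩
      · exact ⟨-1, 0, 0, by simp, by simp, by simp⟩
      · exact ⟨0, 1, 1, by simp, by simp, by simp⟩
      · exact ⟨0, -1, 1, by simp, by simp, by simp⟩
    · rintro _ ⟨x, y, s, h1, h2, rfl⟩ _ ⟨x', y', s', h1', h2', rfl⟩ a b ha hb hab
      obtain rfl : b = 1 - a := by linarith
      refine ⟨a * x + (1 - a) * x', a * y + (1 - a) * y', a * s + (1 - a) * s', ?_, ?_, ?_⟩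
      · rw [abs_le] at *
        constructor <;> nlinarith [h1.1, h1.2, h1'.1, h1'.2]
      · rw [abs_le] at *
        constructor <;> nlinarith [h2.1, h2.2, h2'.1, h2'.2]
      · simp only [fr]; module
  exact this hX

end Frame

theorem det3_smul (c : ℝ) (u A B : E3) : det3 (c • u) A B = c * det3 u A B := by
  simp only [det3, PiLp.smul_apply, smul_eq_mul]; ring

theorem sector_coords {t0 δ S Y R : ℝ} (hδ : 0 < δ) (hR : 0 < R) (h0 : t0 * S ≤ Y)
    (h1 : Y ≤ (t0 + δ) * S) (hS : S ≤ R) :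
    ∃ z ∈ tri, z.1 * (R * t0) + z.2 * (R * (t0 + δ)) = Y ∧ z.1 * R + z.2 * R = S := by
  refine ⟨(((t0 + δ) * S - Y) / (δ * R), (Y - t0 * S) / (δ * R)), ⟨?_, ?_, ?_⟩, ?_, ?_⟩
  · exact div_nonneg (by linarith) (by positivity)
  · exact div_nonneg (by linarith) (by positivity)
  · simp only
    rw [← add_div, div_le_one (by positivity)]
    nlinarith
  · simp only; field_simp; ring
  · simp only; field_simp; ring

theorem cap_pos (m : ℝ) : 0 < cap m := by unfold cap; positivity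

namespace Frame

variable (F : Frame)

/-- axis directions -/
def dir : Bool × Fin NN → E3
  | (false, k) => F.fr 1 (-(gam * aa k)) (-(Real.sqrt 2 * (gam * mm k)))
  | (true, k) => F.fr (gam * aa k) 1 (-(Real.sqrt 2 * (gam * mm k)))

/-- apices -/
def apex (o : E3) (c : ℝ) : Bool × Fin NN → E3
  | (false, _) => o
  | (true, _) => o + F.fr 0 0 (c * Real.sqrt 2)

/-- first edges -/
def edA (c : ℝ) : Bool × Fin NN → E3
  | (false, k) => F.fr 0 (c * (cap (mm k) * tt k)) (c * Real.sqrt 2 * cap (mm k))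
  | (true, k) => F.fr (c * (cap (mm k) * tt k)) 0 (-(c * Real.sqrt 2 * cap (mm k)))

/-- second edges -/
def edB (c : ℝ) : Bool × Fin NN → E3
  | (false, k) => F.fr 0 (c * (cap (mm k) * (tt k + del))) (c * Real.sqrt 2 * cap (mm k))
  | (true, k) => F.fr (c * (cap (mm k) * (tt k + del))) 0 (-(c * Real.sqrt 2 * cap (mm k)))

theorem norm_dir (i : Bool × Fin NN) :
    ‖F.dir i‖ = Real.sqrt (1 + gam ^ 2 * (aa i.2 ^ 2 + 2 * mm i.2 ^ 2)) := by
  have h2 : Real.sqrt 2 ^ 2 = 2 := Real.sq_sqrt (by norm_num)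
  rw [← Real.sqrt_sq (norm_nonneg _)]
  congr 1
  obtain ⟨_ | _, k⟩ := i <;> simp only [dir, normsq_fr] <;>
    linear_combination (gam * mm k) ^ 2 * h2

theorem norm_dir_pos (i : Bool × Fin NN) : 0 < ‖F.dir i‖ := by
  rw [norm_dir]; positivity

theorem abs_det_dir {c : ℝ} (i : Bool × Fin NN) :
    |det3 (F.dir i) (F.edA c i) (F.edB c i)| = c ^ 2 * Real.sqrt 2 * (del * cap (mm i.2) ^ 2) := by
  have hd : (0 : ℝ) < del := by norm_num [del]
  have hpos : 0 ≤ c ^ 2 * Real.sqrt 2 * (del * cap (mm i.2) ^ 2) := by positivity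
  rw [← abs_of_nonneg hpos, ← abs_neg (c ^ 2 * _ * _)]
  obtain ⟨_ | _, k⟩ := i <;> simp only [dir, edA, edB, abs_det_fr] <;> congr 1 <;> ring

theorem cover_dir (o : E3) (c : ℝ) {X : E3} (hX : X ∈ F.tetra o c) :
    ∃ i, ∃ z ∈ tri, ∃ t : ℝ, X = aff (F.apex o c i) (F.edA c i) (F.edB c i) z + t • F.dir i := by
  obtain ⟨x, y, s, hx, hy, rfl⟩ := F.mem_tetra hX
  have hd : (0 : ℝ) < del := by norm_num [del]
  have hx' := abs_le.mp hx
  have hy' := abs_le.mp hy
  obtain ⟨i, hi, hi0, hi1⟩ := discrete_ivt (fun k => y - tt k * s - x * gam * (tt k ^ 2 - 1) / 2)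
    NN (by norm_num [NN]) (by simp only [tt_zero]; linarith) (by simp only [tt_NN]; linarith)
  obtain ⟨j, hj, hj0, hj1⟩ := discrete_ivt
    (fun k => x - tt k * (1 - s) + y * gam * (tt k ^ 2 - 1) / 2)
    NN (by norm_num [NN]) (by simp only [tt_zero]; linarith) (by simp only [tt_NN]; linarith)
  obtain ⟨hm, ha0, ha, h0, h1⟩ := mm_aa hi
  obtain ⟨hm', hb0, hb, h0', h1'⟩ := mm_aa hj
  set S := s + gam * mm i * x with hS
  set Y := y + gam * aa i * x with hY
  set S' := 1 - s - gam * mm j * y with hS'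
  set X' := x - gam * aa j * y with hX'
  have c1 : tt i * S ≤ Y := by
    have : Y - tt i * S = y - tt i * s - x * gam * (tt i ^ 2 - 1) / 2 := by
      simp only [hS, hY, aa, mm]; ring
    linarith
  have c2 : Y ≤ (tt i + del) * S := by
    have : Y - tt (i + 1) * S = y - tt (i + 1) * s - x * gam * (tt (i + 1) ^ 2 - 1) / 2 := by
      simp only [hS, hY, aa, mm]; ring
    rw [← tt_succ]; linarith
  have c3 : tt j * S' ≤ X' := by
    have : X' - tt j * S' = x - tt j * (1 - s) + y * gam * (tt j ^ 2 - 1) / 2 := by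
      simp only [hS', hX', aa, mm]; ring
    linarith
  have c4 : X' ≤ (tt j + del) * S' := by
    have : X' - tt (j + 1) * S' =
        x - tt (j + 1) * (1 - s) + y * gam * (tt (j + 1) ^ 2 - 1) / 2 := by
      simp only [hS', hX', aa, mm]; ring
    rw [← tt_succ]; linarith
  have hs0 : 0 ≤ s := (abs_nonneg y).trans hy
  have hs1 : s ≤ 1 := by linarith [abs_nonneg x]
  have := cover_ineq (m := mm i) (m' := mm j) (a := aa i) (b := aa j) (x := x) (y := y) (S := S)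
    (S' := S') (X := X') (Y := Y) hm hm' ha0 (by rw [ha]; nlinarith [sq_nonneg del]) hb0
    (by rw [hb]; nlinarith [sq_nonneg del]) (by linarith) (by linarith)
    (by rw [h0] at c1 c2; rw [abs_le]; constructor <;> linarith)
    (by rw [h0'] at c3 c4; rw [abs_le]; constructor <;> linarith) rfl rfl
    (by simp only [hS, hS']; ring)
  rcases this with h | h
  · obtain ⟨z, hz, e1, e2⟩ := sector_coords hd (cap_pos (mm i)) c1 c2 h
    refine ⟨(false, ⟨i, hi⟩), z, hz, c * x, ?_⟩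
    simp only [aff, apex, edA, edB, dir, fr]
    have e3 : y = z.1 * (cap (mm i) * tt i) + z.2 * (cap (mm i) * (tt i + del))
      - gam * aa i * x := by rw [e1, hY]; ring
    have e4 : s = z.1 * cap (mm i) + z.2 * cap (mm i) - gam * mm i * x := by rw [e2, hS]; ring
    clear_value S Y S' X'
    rw [e3, e4]; module
  · obtain ⟨z, hz, e1, e2⟩ := sector_coords hd (cap_pos (mm j)) c3 c4 h
    refine ⟨(true, ⟨j, hj⟩), z, hz, c * y, ?_⟩
    simp only [aff, apex, edA, edB, dir, fr]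
    have e3 : x = z.1 * (cap (mm j) * tt j) + z.2 * (cap (mm j) * (tt j + del))
      + gam * aa j * y := by rw [e1, hX']; ring
    have e4 : s = 1 - (z.1 * cap (mm j) + z.2 * cap (mm j)) - gam * mm j * y := by
      rw [e2, hS']; ring
    clear_value S Y S' X'
    rw [e3, e4]; module

/-- The main cover. -/
theorem exists_cover (o : E3) (c : ℝ) :
    ∃ u P A B : Bool × Fin NN → E3, (∀ i, ‖u i‖ = 1) ∧
      (∀ i, inner ℝ (P i) (u i) = 0 ∧ inner ℝ (A i) (u i) = 0 ∧ inner ℝ (B i) (u i) = 0) ∧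
      (∀ X ∈ F.tetra o c, ∃ i, ∃ z ∈ tri, ∃ t : ℝ, X = aff (P i) (A i) (B i) z + t • u i) ∧
      ∑ i, gr (A i) (B i) / 2 ≤ c ^ 2 * Real.sqrt 2 * (1 / 2 - 1 / 10 ^ 8) := by
  let u : Bool × Fin NN → E3 := fun i => ‖F.dir i‖⁻¹ • F.dir i
  have hu : ∀ i, ‖u i‖ = 1 := fun i => by
    simp only [u, norm_smul, norm_inv, norm_norm]
    exact inv_mul_cancel₀ (F.norm_dir_pos i).ne'
  refine ⟨u, fun i => pr (u i) (F.apex o c i), fun i => pr (u i) (F.edA c i),
    fun i => pr (u i) (F.edB c i), hu,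
    fun i => ⟨inner_pr (hu i) _, inner_pr (hu i) _, inner_pr (hu i) _⟩, ?_, ?_⟩
  · intro X hX
    obtain ⟨i, z, hz, t, rfl⟩ := F.cover_dir o c hX
    refine ⟨i, z, hz, t * ‖F.dir i‖ + inner ℝ (aff (F.apex o c i) (F.edA c i) (F.edB c i) z) (u i),
      ?_⟩
    rw [← pr_aff, pr, add_smul, mul_smul]
    have : ‖F.dir i‖ • u i = F.dir i := by
      simp only [u, smul_smul, mul_inv_cancel₀ (F.norm_dir_pos i).ne', one_smul]
    rw [this]; abel
  · have : ∀ i : Bool × Fin NN, gr (pr (u i) (F.edA c i)) (pr (u i) (F.edB c i)) / 2 =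
        c ^ 2 * Real.sqrt 2 * (del * cap (mm i.2) ^ 2 / 2 /
          Real.sqrt (1 + gam ^ 2 * (aa i.2 ^ 2 + 2 * mm i.2 ^ 2))) := fun i => by
      rw [gr_pr (hu i), det3_smul, abs_mul, abs_det_dir, abs_inv, abs_norm, norm_dir]
      ring
    simp only [this]
    rw [← Finset.mul_sum, Fintype.sum_prod_type, Fintype.sum_bool]
    have h := sum_term_le
    rw [← Fin.sum_univ_eq_sum_range (fun k => del * cap (mm k) ^ 2 / 2 /
      Real.sqrt (1 + gam ^ 2 * (aa k ^ 2 + 2 * mm k ^ 2)))] at h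
    apply mul_le_mul_of_nonneg_left _ (by positivity)
    linarith

end Frame

/-! ### lower bound for projections -/

theorem area_pr_ge_tri {v : E3} (hv : ‖v‖ = 1) {K : Set E3} (hK : Convex ℝ K) {X Y Z : E3}
    (hX : X ∈ K) (hY : Y ∈ K) (hZ : Z ∈ K) :
    ENNReal.ofReal (|det3 v (Y - X) (Z - X)| / 2) ≤ (μHE[2] : Measure E3) (pr v '' K) := by
  have : pr v '' (aff X (Y - X) (Z - X) '' tri) ⊆ pr v '' K := by
    apply image_mono
    rintro _ ⟨z, hz, rfl⟩
    exact aff_mem_of_convex hK hX hY hZ hz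
  refine le_trans (le_of_eq ?_) (measure_mono this)
  rw [area_pr_aff hv _ _ _ measurableSet_tri, volume_tri, ← ENNReal.ofReal_mul (abs_nonneg _)]
  congr 1; ring

theorem area_pr_ge_quad {v : E3} (hv : ‖v‖ = 1) {K : Set E3} (hK : Convex ℝ K) {X Y Z W : E3}
    (hX : X ∈ K) (hY : Y ∈ K) (hZ : Z ∈ K) (hW : W ∈ K) :
    ENNReal.ofReal (|det3 v (X - Y) (Z - W)| / 2) ≤ (μHE[2] : Measure E3) (pr v '' K) := by
  set α := det3 v (X - Y) (Z - Y) with hα
  set β := det3 v (X - Y) (W - Y) with hβ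
  have hd : det3 v (X - Y) (Z - W) = α - β := by
    simp only [hα, hβ, det3, PiLp.sub_apply]; ring
  rw [hd]
  have aux : ∀ a b : ℝ, 0 ≤ a * b → |a| ≤ |b| → |a - b| ≤ |b| := by
    intro a b hab h
    have h1 : a * b = |a| * |b| := by rw [← abs_mul, abs_of_nonneg hab]
    have h2 : |a| * |a| ≤ |a| * |b| := mul_le_mul_of_nonneg_left h (abs_nonneg _)
    rw [← sq_le_sq]
    nlinarith [abs_mul_abs_self a]
  by_cases hs : 0 ≤ α * β
  · rcases le_total |α| |β| with h | h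
    · refine le_trans (ENNReal.ofReal_le_ofReal ?_) (area_pr_ge_tri hv hK hY hX hW)
      linarith [aux α β hs h]
    · refine le_trans (ENNReal.ofReal_le_ofReal ?_) (area_pr_ge_tri hv hK hY hX hZ)
      have := aux β α (by linarith) h
      rw [abs_sub_comm] at this
      linarith
  · push Not at hs
    let H : Set E3 := {q | 0 < α * det3 v (X - Y) (q - Y)}
    have hH : MeasurableSet H := by
      apply IsOpen.measurableSet
      apply isOpen_lt continuous_const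
      unfold det3
      fun_prop
    have key : ∀ (T : E3) (z : ℝ × ℝ), det3 v (X - Y) (pr v (aff Y (X - Y) (T - Y) z) - Y) =
        z.2 * det3 v (X - Y) (T - Y) := by
      intro T z
      simp only [pr]
      generalize inner ℝ (aff Y (X - Y) (T - Y) z) v = κ
      simp only [det3, aff, PiLp.sub_apply, PiLp.add_apply, PiLp.smul_apply, smul_eq_mul]
      ring
    have hα0 : α ≠ 0 := by rintro h; simp [h] at hs
    have s1 : pr v '' (aff Y (X - Y) (Z - Y) '' tri') ⊆ pr v '' K ∩ H := by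
      rintro _ ⟨_, ⟨z, hz, rfl⟩, rfl⟩
      refine ⟨⟨_, aff_mem_of_convex hK hY hX hZ ⟨hz.1, hz.2.1.le, hz.2.2⟩, rfl⟩, ?_⟩
      simp only [H, mem_ofPred_eq, key, ← hα]
      have := hz.2.1
      have h2 : 0 < α * α := mul_self_pos.mpr hα0
      nlinarith
    have s2 : pr v '' (aff Y (X - Y) (W - Y) '' tri) ⊆ pr v '' K \ H := by
      rintro _ ⟨_, ⟨z, hz, rfl⟩, rfl⟩
      refine ⟨⟨_, aff_mem_of_convex hK hY hX hW hz, rfl⟩, ?_⟩
      simp only [H, mem_ofPred_eq, key, ← hβ, not_lt]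
      have := hz.2.1
      nlinarith
    rw [← measure_inter_add_sdiff (pr v '' K) hH]
    refine le_trans ?_ (add_le_add (measure_mono s1) (measure_mono s2))
    rw [area_pr_aff hv _ _ _ measurableSet_tri', area_pr_aff hv _ _ _ measurableSet_tri,
      volume_tri, volume_tri', ← ENNReal.ofReal_mul (abs_nonneg _),
      ← ENNReal.ofReal_mul (abs_nonneg _), ← ENNReal.ofReal_add (by positivity) (by positivity)]
    apply ENNReal.ofReal_le_ofReal
    have := abs_sub α β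
    rw [← hα, ← hβ]
    linarith

theorem min_proj_real {d1 d2 d3 a : ℝ} (h : d1 ^ 2 + d2 ^ 2 + d3 ^ 2 = 4) (h1 : |d1| ≤ a)
    (h2 : |d2| ≤ a) (h3 : |d3| ≤ a) (f1 : |d1 + d2 + d3| / 2 ≤ a) (f2 : |d1 - d2 - d3| / 2 ≤ a)
    (f3 : |-d1 + d2 - d3| / 2 ≤ a) (f4 : |-d1 - d2 + d3| / 2 ≤ a) : Real.sqrt 2 ≤ a := by
  have hs : |d1| + |d2| + |d3| ≤ 2 * a := by
    have g1 := abs_le.mp (show |d1 + d2 + d3| ≤ 2 * a by linarith)
    have g2 := abs_le.mp (show |d1 - d2 - d3| ≤ 2 * a by linarith)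
    have g3 := abs_le.mp (show |-d1 + d2 - d3| ≤ 2 * a by linarith)
    have g4 := abs_le.mp (show |-d1 - d2 + d3| ≤ 2 * a by linarith)
    rcases abs_cases d1 with ⟨e1, _⟩ | ⟨e1, _⟩ <;> rcases abs_cases d2 with ⟨e2, _⟩ | ⟨e2, _⟩ <;>
      rcases abs_cases d3 with ⟨e3, _⟩ | ⟨e3, _⟩ <;> linarith
  have ha : 0 ≤ a := (abs_nonneg _).trans h1
  apply Real.sqrt_le_iff.mpr ⟨ha, _⟩
  rw [← sq_abs d1, ← sq_abs d2, ← sq_abs d3] at h
  nlinarith [abs_nonneg d1, abs_nonneg d2, abs_nonneg d3]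

namespace Frame

variable (F : Frame)

theorem isCompact_tetra (o : E3) (c : ℝ) : IsCompact (F.tetra o c) :=
  (Set.toFinite _).isCompact_convexHull ℝ

theorem area_pr_tetra_ne_top (o : E3) (c : ℝ) {v : E3} (hv : ‖v‖ = 1) :
    (μHE[2] : Measure E3) (pr v '' F.tetra o c) ≠ ⊤ := by
  have h1 : IsCompact (pr v '' F.tetra o c) := (F.isCompact_tetra o c).image (by unfold pr; fun_prop)
  have := area_plane_bounded_ne_top hv h1.isBounded
  rwa [inter_eq_left.mpr] at this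
  rintro _ ⟨y, _, rfl⟩
  exact inner_pr hv y

theorem min_proj (o : E3) {c : ℝ} (hc : 0 < c) {v : E3} (hv : ‖v‖ = 1) :
    c ^ 2 * Real.sqrt 2 ≤ ((μHE[2] : Measure E3) (pr v '' F.tetra o c)).toReal := by
  have hK : Convex ℝ (F.tetra o c) := convex_convexHull ℝ _
  have hA : o + F.fr c 0 0 ∈ F.tetra o c := subset_convexHull ℝ _ (by simp)
  have hB : o + F.fr (-c) 0 0 ∈ F.tetra o c := subset_convexHull ℝ _ (by simp)
  have hC : o + F.fr 0 c (c * Real.sqrt 2) ∈ F.tetra o c := subset_convexHull ℝ _ (by simp)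
  have hD : o + F.fr 0 (-c) (c * Real.sqrt 2) ∈ F.tetra o c := subset_convexHull ℝ _ (by simp)
  have hfin := F.area_pr_tetra_ne_top o c hv
  have q1 := area_pr_ge_quad hv hK hA hB hC hD
  have q2 := area_pr_ge_quad hv hK hA hC hB hD
  have q3 := area_pr_ge_quad hv hK hA hD hB hC
  have t1 := area_pr_ge_tri hv hK hA hB hC
  have t2 := area_pr_ge_tri hv hK hA hB hD
  have t3 := area_pr_ge_tri hv hK hA hC hD
  have t4 := area_pr_ge_tri hv hK hB hC hD
  rw [ENNReal.ofReal_le_iff_le_toReal hfin] at q1 q2 q3 t1 t2 t3 t4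
  set a := ((μHE[2] : Measure E3) (pr v '' F.tetra o c)).toReal
  obtain ⟨x, y, z, rfl⟩ := F.exists_fr v
  have hn : x ^ 2 + y ^ 2 + z ^ 2 = 1 := by rw [← F.normsq_fr, hv]; norm_num
  simp only [add_sub_add_left_eq_sub, fr_sub, abs_det_fr] at q1 q2 q3 t1 t2 t3 t4
  have h2 : Real.sqrt 2 ^ 2 = 2 := Real.sq_sqrt (by norm_num)
  have hc2 : 0 < c ^ 2 := by positivity
  have conv : ∀ e d : ℝ, |e| / 2 ≤ a → (e = 2 * c ^ 2 * d ∨ e = -(2 * c ^ 2 * d)) →
      |d| ≤ a / c ^ 2 := by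
    intro e d h he
    rw [le_div_iff₀ hc2]
    have : |e| = 2 * c ^ 2 * |d| := by
      rcases he with rfl | rfl
      · rw [abs_mul, abs_of_pos (by positivity)]
      · rw [abs_neg, abs_mul, abs_of_pos (by positivity)]
    rw [this] at h; linarith
  have conv' : ∀ e d : ℝ, |e| / 2 ≤ a → (e = c ^ 2 * d ∨ e = -(c ^ 2 * d)) →
      |d| / 2 ≤ a / c ^ 2 := by
    intro e d h he
    rw [le_div_iff₀ hc2]
    have : |e| = c ^ 2 * |d| := by
      rcases he with rfl | rfl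
      · rw [abs_mul, abs_of_pos (by positivity)]
      · rw [abs_neg, abs_mul, abs_of_pos (by positivity)]
    rw [this] at h; linarith
  have := min_proj_real (d1 := 2 * z) (d2 := Real.sqrt 2 * (x + y)) (d3 := Real.sqrt 2 * (x - y))
    (a := a / c ^ 2) (by linear_combination 4 * hn + (2 * x ^ 2 + 2 * y ^ 2) * h2)
    (conv _ _ q1 (by first | (left; ring1) | (right; ring1)))
    (conv _ _ q2 (by first | (left; ring1) | (right; ring1)))
    (conv _ _ q3 (by first | (left; ring1) | (right; ring1)))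
    (conv' _ _ t3 (by first | (left; ring1) | (right; ring1)))
    (conv' _ _ t4 (by first | (left; ring1) | (right; ring1)))
    (conv' _ _ t1 (by first | (left; ring1) | (right; ring1)))
    (conv' _ _ t2 (by first | (left; ring1) | (right; ring1)))
  rw [le_div_iff₀ hc2] at this
  linarith

end Frame

end Crest.Agent.Cyl
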