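import Crest.Agent.Cyl.Area

/-!
Sheared lattice tilings: the linear model for covers of ruled sets by sheared square cylinders.
-/

set_option autoImplicit false
set_option linter.unusedVariables false

open MeasureTheory Set
open scoped ENNReal Topology

noncomputable section

namespace Crest.Agent.Cyl

/-- the sheared lattice of unit squares still covers the plane -/
theorem shear_tile (a b X Y : ℝ) (h0 : 0 ≤ a * b) (h1 : a * b < 1) :
    ∃ m n : ℤ, X - m - a * n ∈ Icc (0 : ℝ) 1 ∧ Y - n - b * m ∈ Icc (0 : ℝ) 1 := by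
  let φ : ℤ → ℤ := fun n => ⌊Y - b * ⌊X - a * n⌋⌋
  have hmono : Monotone φ := by
    intro n n' hn
    have hn' : (n : ℝ) ≤ n' := by exact_mod_cast hn
    apply Int.floor_mono
    rcases mul_nonneg_iff.mp h0 with ⟨ha, hb⟩ | ⟨ha, hb⟩
    · have : ⌊X - a * n'⌋ ≤ ⌊X - a * n⌋ := Int.floor_mono (by nlinarith)
      have : (⌊X - a * n'⌋ : ℝ) ≤ ⌊X - a * n⌋ := by exact_mod_cast this
      nlinarith
    · have : ⌊X - a * n⌋ ≤ ⌊X - a * n'⌋ := Int.floor_mono (by nlinarith)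
      have : (⌊X - a * n⌋ : ℝ) ≤ ⌊X - a * n'⌋ := by exact_mod_cast this
      nlinarith
  have hest : ∀ n : ℤ, |(φ n : ℝ) - a * b * n| ≤ |Y - b * X| + |b| + 1 := by
    intro n
    have e1 := Int.floor_le (X - a * n)
    have e2 := Int.lt_floor_add_one (X - a * n)
    have e3 := Int.floor_le (Y - b * ⌊X - a * n⌋)
    have e4 := Int.lt_floor_add_one (Y - b * ⌊X - a * n⌋)
    have e5 : |b * (X - a * n - ⌊X - a * n⌋)| ≤ |b| := by
      rw [abs_mul]
      exact mul_le_of_le_one_right (abs_nonneg _) (abs_le.mpr ⟨by linarith, by linarith⟩)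
    have e6 := abs_le.mp e5
    have e7 := le_abs_self (Y - b * X)
    have e8 := neg_abs_le (Y - b * X)
    simp only [φ]
    exact abs_le.mpr ⟨by nlinarith, by nlinarith⟩
  set C := |Y - b * X| + |b| + 1 with hC
  have hd : 0 < 1 - a * b := by linarith
  obtain ⟨n, hn, hmax⟩ := Int.exists_greatest_of_bdd (P := fun n => n ≤ φ n)
    ⟨⌈C / (1 - a * b)⌉, fun z hz => by
      have h2 : (z : ℝ) ≤ φ z := by exact_mod_cast hz
      have h3 := (abs_le.mp (hest z)).2
      have h4 : (z : ℝ) ≤ C / (1 - a * b) := by rw [le_div_iff₀ hd]; linarith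
      exact_mod_cast h4.trans (Int.le_ceil _)⟩
    ⟨⌊-C / (1 - a * b)⌋, by
      have h3 := (abs_le.mp (hest ⌊-C / (1 - a * b)⌋)).1
      have h4 := Int.floor_le (-C / (1 - a * b))
      rw [le_div_iff₀ hd] at h4
      have : ((⌊-C / (1 - a * b)⌋ : ℤ) : ℝ) ≤ φ ⌊-C / (1 - a * b)⌋ := by linarith
      exact_mod_cast this⟩
  have hfix : φ n = n := by
    have h2 : ¬ (n + 1 ≤ φ (n + 1)) := fun h => by have := hmax _ h; omega
    have h3 := hmono (show n ≤ n + 1 by omega)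
    omega
  refine ⟨⌊X - a * n⌋, n, ⟨?_, ?_⟩, ⟨?_, ?_⟩⟩
  · linarith [Int.floor_le (X - a * n)]
  · linarith [Int.lt_floor_add_one (X - a * n)]
  · have := Int.floor_le (Y - b * ⌊X - a * n⌋)
    have h2 : ((⌊Y - b * ⌊X - a * n⌋⌋ : ℤ) : ℝ) = n := by exact_mod_cast hfix
    linarith
  · have := Int.lt_floor_add_one (Y - b * ⌊X - a * n⌋)
    have h2 : ((⌊Y - b * ⌊X - a * n⌋⌋ : ℤ) : ℝ) = n := by exact_mod_cast hfix
    linarith

theorem inner2 (x y : E2) : inner ℝ x y = x 0 * y 0 + x 1 * y 1 := by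
  simp [PiLp.inner_apply, Fin.sum_univ_two]; ring

theorem normsq2 (x : E2) : ‖x‖ ^ 2 = x 0 ^ 2 + x 1 ^ 2 := by
  rw [← real_inner_self_eq_norm_sq, inner2]; ring

theorem disc_add {a b u w R K : ℝ} (hR : 0 ≤ R) (h : a ^ 2 + b ^ 2 ≤ R ^ 2) (hu : |u| ≤ K)
    (hw : |w| ≤ K) : (a + u) ^ 2 + (b + w) ^ 2 ≤ (R + 2 * K) ^ 2 := by
  have h1 : |a| ≤ R := abs_le_of_sq_le_sq (by nlinarith) hR
  have h2 : |b| ≤ R := abs_le_of_sq_le_sq (by nlinarith) hR
  have hK : 0 ≤ K := (abs_nonneg _).trans hu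
  have h3 : a * u ≤ R * K := (le_abs_self _).trans (by rw [abs_mul]; gcongr)
  have h4 : b * w ≤ R * K := (le_abs_self _).trans (by rw [abs_mul]; gcongr)
  have h5 : u ^ 2 ≤ K ^ 2 := sq_le_sq' (abs_le.mp hu).1 (abs_le.mp hu).2
  have h6 : w ^ 2 ≤ K ^ 2 := sq_le_sq' (abs_le.mp hw).1 (abs_le.mp hw).2
  nlinarith

/-- lattice points in a disc -/
theorem lattice_count (ρ : ℝ) (hρ : 0 ≤ ρ) :
    ∃ T : Finset (ℤ × ℤ), (∀ z : ℤ × ℤ, z ∈ T ↔ (z.1 : ℝ) ^ 2 + (z.2 : ℝ) ^ 2 ≤ ρ ^ 2) ∧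
      (T.card : ℝ) ≤ Real.pi * (ρ + 2) ^ 2 := by
  classical
  let N : ℤ := ⌈ρ⌉
  have hN : ρ ≤ N := Int.le_ceil ρ
  let T : Finset (ℤ × ℤ) := (Finset.Icc (-N) N ×ˢ Finset.Icc (-N) N).filter
    fun z => (z.1 : ℝ) ^ 2 + (z.2 : ℝ) ^ 2 ≤ ρ ^ 2
  have hT : ∀ z : ℤ × ℤ, z ∈ T ↔ (z.1 : ℝ) ^ 2 + (z.2 : ℝ) ^ 2 ≤ ρ ^ 2 := by
    intro z
    simp only [T, Finset.mem_filter, Finset.mem_product, Finset.mem_Icc, and_iff_right_iff_imp]
    intro h
    have h1 := abs_le.mp (abs_le_of_sq_le_sq (a := (z.1 : ℝ)) (by nlinarith) hρ)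
    have h2 := abs_le.mp (abs_le_of_sq_le_sq (a := (z.2 : ℝ)) (by nlinarith) hρ)
    refine ⟨⟨?_, ?_⟩, ?_, ?_⟩
    · have : ((-N : ℤ) : ℝ) ≤ z.1 := by push_cast; linarith
      exact_mod_cast this
    · have : (z.1 : ℝ) ≤ N := by linarith
      exact_mod_cast this
    · have : ((-N : ℤ) : ℝ) ≤ z.2 := by push_cast; linarith
      exact_mod_cast this
    · have : (z.2 : ℝ) ≤ N := by linarith
      exact_mod_cast this
  refine ⟨T, hT, ?_⟩
  let cell : ℤ × ℤ → Set (ℝ × ℝ) := fun z => Ico (z.1 : ℝ) (z.1 + 1) ×ˢ Ico (z.2 : ℝ) (z.2 + 1)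
  have hmeas : ∀ z, MeasurableSet (cell z) := fun z => measurableSet_Ico.prod measurableSet_Ico
  have hvol : volume (⋃ z ∈ T, cell z) = T.card := by
    rw [measure_biUnion_finset _ (fun z _ => hmeas z)]
    · have : ∀ z, volume (cell z) = 1 := fun z => by
        rw [Measure.volume_eq_prod, Measure.prod_prod]; simp
      simp [this]
    · intro z _ z' _ hne
      refine Set.disjoint_left.mpr fun x hx hx' => hne ?_
      have e1 : ⌊x.1⌋ = z.1 := Int.floor_eq_iff.mpr hx.1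
      have e2 : ⌊x.1⌋ = z'.1 := Int.floor_eq_iff.mpr hx'.1
      have e3 : ⌊x.2⌋ = z.2 := Int.floor_eq_iff.mpr hx.2
      have e4 : ⌊x.2⌋ = z'.2 := Int.floor_eq_iff.mpr hx'.2
      exact Prod.ext (e1.symm.trans e2) (e3.symm.trans e4)
  have h1 := area_aff (0 : E2) !₂[1, 0] !₂[0, 1] (Finset.measurableSet_biUnion T fun z _ => hmeas z)
  have hg : gr (!₂[1, 0] : E2) !₂[0, 1] = 1 := by
    rw [gr, normsq2, normsq2, inner2]; simp
  rw [hvol, hg, EuclideanSpace.euclideanHausdorffMeasure_eq_volume, ENNReal.ofReal_one,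
    one_mul] at h1
  have h2 : aff (0 : E2) !₂[1, 0] !₂[0, 1] '' (⋃ z ∈ T, cell z) ⊆
      Metric.closedBall (0 : E2) (ρ + 2) := by
    rintro _ ⟨x, hx, rfl⟩
    obtain ⟨z, hz, hx1, hx2⟩ := mem_iUnion₂.mp hx
    rw [mem_closedBall_zero_iff]
    refine (abs_le_of_sq_le_sq' ?_ (by linarith)).2
    have h := (hT z).mp hz
    have := disc_add (a := z.1) (b := z.2) (u := x.1 - z.1) (w := x.2 - z.2) (K := 1) hρ h
      (abs_le.mpr ⟨by linarith [hx1.1], by linarith [hx1.2]⟩)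
      (abs_le.mpr ⟨by linarith [hx2.1], by linarith [hx2.2]⟩)
    rw [normsq2]
    simp only [aff, PiLp.add_apply, PiLp.smul_apply, PiLp.zero_apply, smul_eq_mul,
      Matrix.cons_val_zero, Matrix.cons_val_one]
    linarith
  have h3 := measure_mono (μ := (volume : Measure E2)) h2
  rw [h1, EuclideanSpace.volume_closedBall_fin_two, ← ENNReal.ofReal_pow (by linarith),
    ← ENNReal.ofReal_mul (by positivity), ← ENNReal.ofReal_natCast,
    ENNReal.ofReal_le_ofReal_iff (by positivity)] at h3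
  linarith

/-- a traceless map is off-diagonal in a suitable orthonormal frame -/
theorem exists_offdiag (A : E2 →L[ℝ] E2) (htr : LinearMap.trace ℝ _ A.toLinearMap = 0) :
    ∃ c s α β : ℝ, c ^ 2 + s ^ 2 = 1 ∧ A !₂[c, s] = β • !₂[-s, c] ∧ A !₂[-s, c] = α • !₂[c, s] ∧
      α * β = - LinearMap.det A.toLinearMap := by
  let e0 : E2 := !₂[1, 0]
  let e1 : E2 := !₂[0, 1]
  have hb0 : (EuclideanSpace.basisFun (Fin 2) ℝ) 0 = e0 := by
    ext i; fin_cases i <;> simp [e0]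
  have hb1 : (EuclideanSpace.basisFun (Fin 2) ℝ) 1 = e1 := by
    ext i; fin_cases i <;> simp [e1]
  have htr' : A e0 0 + A e1 1 = 0 := by
    rw [LinearMap.trace_eq_matrix_trace ℝ (EuclideanSpace.basisFun (Fin 2) ℝ).toBasis,
      Matrix.trace_fin_two] at htr
    simpa [LinearMap.toMatrix_apply, hb0, hb1] using htr
  have hdet : LinearMap.det A.toLinearMap = A e0 0 * A e1 1 - A e1 0 * A e0 1 := by
    rw [← LinearMap.det_toMatrix (EuclideanSpace.basisFun (Fin 2) ℝ).toBasis, Matrix.det_fin_two]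
    simp [LinearMap.toMatrix_apply, hb0, hb1]
  have hA : ∀ x y : ℝ, A !₂[x, y] = x • A e0 + y • A e1 := by
    intro x y
    rw [← map_smul, ← map_smul, ← map_add]
    congr 1
    ext i; fin_cases i <;> simp [e0, e1]
  set p := A e0 0
  set q := A e1 0
  set r := A e0 1
  set t := A e1 1
  obtain ⟨θ, -, hθ⟩ : (0 : ℝ) ∈ (fun θ : ℝ => p * (Real.cos θ ^ 2 - Real.sin θ ^ 2) +
      (q + r) * Real.cos θ * Real.sin θ) '' uIcc 0 (Real.pi / 2) := by
    apply intermediate_value_uIcc (by fun_prop)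
    simp only [Real.cos_zero, Real.sin_zero, Real.cos_pi_div_two, Real.sin_pi_div_two]
    rw [mem_uIcc]
    rcases le_total p 0 with h | h
    · left; constructor <;> nlinarith
    · right; constructor <;> nlinarith
  have h1 := Real.cos_sq_add_sin_sq θ
  simp only at hθ
  set c := Real.cos θ
  set s := Real.sin θ
  have ht : t = -p := by linarith
  refine ⟨c, s, q * c ^ 2 - r * s ^ 2 - 2 * p * c * s, r * c ^ 2 - q * s ^ 2 - 2 * p * c * s, h1,
    ?_, ?_, ?_⟩
  · rw [hA]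
    ext i; fin_cases i
    · simp only [PiLp.add_apply, PiLp.smul_apply, smul_eq_mul, Fin.zero_eta, Matrix.cons_val_zero]
      change c * p + s * q = _
      linear_combination c * hθ - (c * p + s * q) * h1
    · simp only [PiLp.add_apply, PiLp.smul_apply, smul_eq_mul, Fin.mk_one, Matrix.cons_val_one,
        Matrix.cons_val_zero]
      change c * r + s * t = _
      rw [ht]
      linear_combination s * hθ - (c * r - s * p) * h1
  · rw [hA]
    ext i; fin_cases i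
    · simp only [PiLp.add_apply, PiLp.smul_apply, smul_eq_mul, Fin.zero_eta, Matrix.cons_val_zero]
      change -s * p + c * q = _
      linear_combination s * hθ - (c * q - s * p) * h1
    · simp only [PiLp.add_apply, PiLp.smul_apply, smul_eq_mul, Fin.mk_one, Matrix.cons_val_one,
        Matrix.cons_val_zero]
      change -s * r + c * t = _
      rw [ht]
      linear_combination (-c) * hθ + (c * p + s * r) * h1
  · rw [hdet, ht]
    linear_combination (-(p * (c ^ 2 - s ^ 2) + (q + r) * c * s)) * hθ +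
      (p ^ 2 + q * r) * (c ^ 2 + s ^ 2 + 1) * h1

end Crest.Agent.Cyl
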